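import Mathlib

namespace Vale.Agent.Lib.P137

/-- The centered Hardy-Littlewood maximal function of `f`: the supremum over all radii
`r > 0` of the averages of `|f|` over the open balls `B(x, r)`, with respect to the
Lebesgue measure `volume`. (For bounded continuous `f` all these averages are bounded
by `sup |f|`, so the real-valued supremum is the true one.) -/
noncomputable def centeredMaximal {E : Type*} [PseudoMetricSpace E]
    [MeasureTheory.MeasureSpace E] (f : E → ℝ) (x : E) : ℝ :=
  ⨆ r : Set.Ioi (0:ℝ), ⨍ y in Metric.ball x r, |f y|

end Vale.Agent.Lib.P137
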