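import Mathlib

namespace Vale.Agent.Lib.P137

open MeasureTheory Set Metric
open scoped ENNReal NNReal

theorem refl_apply {E : Type*} [NormedAddCommGroup E] [InnerProductSpace ℝ E] (w y : E) :
    (Submodule.reflection (Submodule.span ℝ {w})ᗮ) y
      = y - (2 * (inner ℝ w y / ‖w‖ ^ 2)) • w := by
  rw [Submodule.reflection_orthogonal_apply, Submodule.reflection_singleton_apply]
  simp only [RCLike.ofReal_real_eq_id, id_eq]
  module

variable {E : Type*} [NormedAddCommGroup E] [InnerProductSpace ℝ E] [FiniteDimensional ℝ E]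
  [MeasurableSpace E] [BorelSpace E]

theorem integrable_indicator_ball {g : E → ℝ} (hg : Continuous g) (x : E) (r : ℝ) :
    Integrable ((ball x r).indicator g) volume :=
  ((hg.continuousOn.integrableOn_compact (isCompact_closedBall x r)).mono_set
    ball_subset_closedBall).integrable_indicator measurableSet_ball

/-- The integral of a radially nonincreasing function over a ball of fixed radius does not
increase when the centre moves away from the origin. -/
theorem setIntegral_ball_anti {φ : ℝ → ℝ} (hφc : Continuous φ) (hanti : AntitoneOn φ (Ici 0))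
    {x x' : E} (h : ‖x‖ ≤ ‖x'‖) (r : ℝ) :
    ∫ y in ball x' r, φ ‖y‖ ≤ ∫ y in ball x r, φ ‖y‖ := by
  by_cases hw0 : x' - x = 0
  · rw [sub_eq_zero.1 hw0]
  obtain ⟨w, hwdef⟩ : ∃ w : E, w = x' - x := ⟨_, rfl⟩
  have hw : w ≠ 0 := by rw [hwdef]; exact hw0
  obtain ⟨p, hpdef⟩ : ∃ p : E, p = (2:ℝ)⁻¹ • (x + x') := ⟨_, rfl⟩
  obtain ⟨L, hL⟩ : ∃ L : E ≃ₗᵢ[ℝ] E, L = Submodule.reflection (Submodule.span ℝ {w})ᗮ :=
    ⟨_, rfl⟩
  obtain ⟨ρ, hρ⟩ : ∃ ρ : E → E, ∀ z, ρ z = p + L (z - p) := ⟨fun z => p + L (z - p), fun _ => rfl⟩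
  obtain ⟨g, hg⟩ : ∃ g : E → ℝ, ∀ y, g y = φ ‖y‖ := ⟨fun y => φ ‖y‖, fun _ => rfl⟩
  have hgc : Continuous g := by
    have : g = fun y => φ ‖y‖ := funext hg
    rw [this]
    exact hφc.comp continuous_norm
  have hρc : Continuous ρ := by
    have : ρ = fun z => p + L (z - p) := funext hρ
    rw [this]
    have := L.continuous
    fun_prop
  have hinv : ∀ F : E → ℝ, ∫ z, F (ρ z) = ∫ z, F z := by
    intro F
    calc ∫ z, F (ρ z) = ∫ z, F (p + L (z - p)) := by simp only [hρ]
      _ = ∫ z, F (p + L z) :=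
          integral_sub_right_eq_self (fun z => F (p + L z)) p
      _ = ∫ y, F (p + y) :=
          (L.measurePreserving).integral_comp' (f := L.toMeasurableEquiv) (fun y => F (p + y))
      _ = ∫ z, F z := integral_add_left_eq_self F p
  have hLw : L w = -w := by
    rw [hL]
    exact Submodule.reflection_orthogonalComplement_singleton_eq_neg w
  have hx'p : x' - p = (2:ℝ)⁻¹ • w := by
    rw [hpdef, hwdef]; module
  have hxp : x - p = -((2:ℝ)⁻¹ • w) := by
    rw [hpdef, hwdef]; module
  have hρx' : ρ x' = x := by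
    rw [hρ, hx'p, map_smul, hLw, hpdef, hwdef]; module
  have hρx : ρ x = x' := by
    rw [hρ, hxp, map_neg, map_smul, hLw, hpdef, hwdef]; module
  have hdist : ∀ z z', dist (ρ z) (ρ z') = dist z z' := by
    intro z z'
    rw [hρ, hρ, dist_eq_norm, dist_eq_norm, add_sub_add_left_eq_sub, ← map_sub, L.norm_map]
    congr 1
    abel
  have hmem : ∀ z, ρ z ∈ ball x r ↔ z ∈ ball x' r := by
    intro z
    have := hdist z x'
    rw [hρx'] at this
    rw [mem_ball, mem_ball, this]
  have hmem' : ∀ z, ρ z ∈ ball x' r ↔ z ∈ ball x r := by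
    intro z
    have := hdist z x
    rw [hρx] at this
    rw [mem_ball, mem_ball, this]
  have hw2 : 0 < ‖w‖ ^ 2 := by
    have : 0 < ‖w‖ := norm_pos_iff.2 hw
    positivity
  have hpw : 0 ≤ inner ℝ p w := by
    have h1 : inner ℝ p w = (2:ℝ)⁻¹ * (‖x'‖ ^ 2 - ‖x‖ ^ 2) := by
      rw [hpdef, hwdef]
      simp only [inner_smul_left, inner_add_left, inner_sub_right,
        real_inner_self_eq_norm_sq, RCLike.conj_to_real]
      rw [real_inner_comm x x']
      ring
    rw [h1]
    have : ‖x‖ ^ 2 ≤ ‖x'‖ ^ 2 := by gcongr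
    linarith
  have hnorm : ∀ z, ‖ρ z‖ ^ 2 - ‖z‖ ^ 2
      = -(4 * inner ℝ w (z - p) * inner ℝ p w / ‖w‖ ^ 2) := by
    intro z
    have hz : z = p + (z - p) := by abel
    have h1 : ‖ρ z‖ ^ 2 = ‖p‖ ^ 2 + 2 * inner ℝ p (L (z - p)) + ‖z - p‖ ^ 2 := by
      rw [hρ, norm_add_sq_real, L.norm_map]
    have h2 : ‖z‖ ^ 2 = ‖p‖ ^ 2 + 2 * inner ℝ p (z - p) + ‖z - p‖ ^ 2 := by
      conv_lhs => rw [hz]
      rw [norm_add_sq_real]
    have h3 : inner ℝ p (L (z - p))
        = inner ℝ p (z - p) - 2 * (inner ℝ w (z - p) / ‖w‖ ^ 2) * inner ℝ p w := by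
      rw [hL, refl_apply, inner_sub_right, inner_smul_right]
    rw [h1, h2, h3]
    ring
  have hdd : ∀ z, dist z x ^ 2 - dist z x' ^ 2 = 2 * inner ℝ w (z - p) := by
    intro z
    have e1 : z - x = (z - p) + (2:ℝ)⁻¹ • w := by
      rw [hpdef, hwdef]; module
    have e2 : z - x' = (z - p) - (2:ℝ)⁻¹ • w := by
      rw [hpdef, hwdef]; module
    have f1 : ‖z - x‖ ^ 2 = ‖z - p‖ ^ 2 + 2 * inner ℝ (z - p) ((2:ℝ)⁻¹ • w)
        + ‖(2:ℝ)⁻¹ • w‖ ^ 2 := by
      rw [e1, norm_add_sq_real]
    have f2 : ‖z - x'‖ ^ 2 = ‖z - p‖ ^ 2 - 2 * inner ℝ (z - p) ((2:ℝ)⁻¹ • w)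
        + ‖(2:ℝ)⁻¹ • w‖ ^ 2 := by
      rw [e2, norm_sub_sq_real]
    rw [dist_eq_norm, dist_eq_norm, f1, f2, inner_smul_right, real_inner_comm w (z - p)]
    ring
  have key : ∀ z, 0 ≤ (ball x r).indicator g z + (ball x' r).indicator (g ∘ ρ) z
      - (ball x' r).indicator g z - (ball x r).indicator (g ∘ ρ) z := by
    intro z
    rcases le_total (inner ℝ w (z - p)) 0 with ht | ht
    · have hn : ‖z‖ ≤ ‖ρ z‖ := by
        rw [← sq_le_sq₀ (norm_nonneg _) (norm_nonneg _)]
        have := hnorm z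
        have h5 : 0 ≤ -(4 * inner ℝ w (z - p) * inner ℝ p w / ‖w‖ ^ 2) := by
          rw [neg_nonneg]
          apply div_nonpos_of_nonpos_of_nonneg _ hw2.le
          nlinarith
        linarith
      have hgz : g (ρ z) ≤ g z := by
        rw [hg, hg]
        exact hanti (mem_Ici.2 (norm_nonneg _)) (mem_Ici.2 (norm_nonneg _)) hn
      have hd : dist z x ≤ dist z x' := by
        rw [← sq_le_sq₀ dist_nonneg dist_nonneg]
        have := hdd z
        linarith
      by_cases hB : z ∈ ball x r <;> by_cases hB' : z ∈ ball x' r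
      · simp [hB, hB']
      · simp only [hB, hB', indicator_of_mem, indicator_of_notMem, not_false_eq_true,
          Function.comp]
        linarith
      · exfalso
        apply hB
        rw [mem_ball] at hB' ⊢
        linarith
      · simp [hB, hB']
    · have hn : ‖ρ z‖ ≤ ‖z‖ := by
        rw [← sq_le_sq₀ (norm_nonneg _) (norm_nonneg _)]
        have := hnorm z
        have h5 : 0 ≤ 4 * inner ℝ w (z - p) * inner ℝ p w / ‖w‖ ^ 2 := by
          apply div_nonneg _ hw2.le
          nlinarith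
        linarith
      have hgz : g z ≤ g (ρ z) := by
        rw [hg, hg]
        exact hanti (mem_Ici.2 (norm_nonneg _)) (mem_Ici.2 (norm_nonneg _)) hn
      have hd : dist z x' ≤ dist z x := by
        rw [← sq_le_sq₀ dist_nonneg dist_nonneg]
        have := hdd z
        linarith
      by_cases hB : z ∈ ball x r <;> by_cases hB' : z ∈ ball x' r
      · simp [hB, hB']
      · exfalso
        apply hB'
        rw [mem_ball] at hB ⊢
        linarith
      · simp only [hB, hB', indicator_of_mem, indicator_of_notMem, not_false_eq_true,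
          Function.comp]
        linarith
      · simp [hB, hB']
  have h1 : ∫ z, (ball x' r).indicator (g ∘ ρ) z = ∫ z, (ball x r).indicator g z := by
    rw [← hinv ((ball x r).indicator g)]
    congr 1
    funext z
    by_cases hz : z ∈ ball x' r
    · rw [indicator_of_mem hz, indicator_of_mem ((hmem z).2 hz)]
      rfl
    · rw [indicator_of_notMem hz, indicator_of_notMem (fun hh => hz ((hmem z).1 hh))]
  have h2 : ∫ z, (ball x r).indicator (g ∘ ρ) z = ∫ z, (ball x' r).indicator g z := by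
    rw [← hinv ((ball x' r).indicator g)]
    congr 1
    funext z
    by_cases hz : z ∈ ball x r
    · rw [indicator_of_mem hz, indicator_of_mem ((hmem' z).2 hz)]
      rfl
    · rw [indicator_of_notMem hz, indicator_of_notMem (fun hh => hz ((hmem' z).1 hh))]
  have ia := integrable_indicator_ball hgc x r
  have ib := integrable_indicator_ball hgc x' r
  have ia' := integrable_indicator_ball (hgc.comp hρc) x' r
  have ib' := integrable_indicator_ball (hgc.comp hρc) x r
  have hnn : 0 ≤ ∫ z, ((ball x r).indicator g z + (ball x' r).indicator (g ∘ ρ) z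
      - (ball x' r).indicator g z - (ball x r).indicator (g ∘ ρ) z) :=
    integral_nonneg key
  have s1 := integral_sub ((ia.add ia').sub ib) ib'
  have s2 := integral_sub (ia.add ia') ib
  have s3 := integral_add ia ia'
  simp only [Pi.add_apply, Pi.sub_apply] at s1 s2 s3
  rw [s1, s2, s3, h1, h2] at hnn
  have e1 : ∫ y in ball x' r, φ ‖y‖ = ∫ z, (ball x' r).indicator g z := by
    rw [integral_indicator measurableSet_ball]
    simp only [hg]
  have e2 : ∫ y in ball x r, φ ‖y‖ = ∫ z, (ball x r).indicator g z := by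
    rw [integral_indicator measurableSet_ball]
    simp only [hg]
  rw [e1, e2]
  linarith

end Vale.Agent.Lib.P137
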