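import Mathlib
import Vale.Agent.Lib.P137.Defs
import Vale.Agent.Lib.P137.Reflect

namespace Vale.Agent.Lib.P137

open MeasureTheory Set Metric
open scoped ENNReal NNReal

variable {E : Type*} [NormedAddCommGroup E] [InnerProductSpace ℝ E] [FiniteDimensional ℝ E]
  [MeasurableSpace E] [BorelSpace E]

theorem integrableOn_ball {g : E → ℝ} (hg : Continuous g) (x : E) (r : ℝ) :
    IntegrableOn g (ball x r) volume :=
  (hg.continuousOn.integrableOn_compact (isCompact_closedBall x r)).mono_set
    ball_subset_closedBall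

theorem volReal_ball_pos (x : E) {r : ℝ} (hr : 0 < r) :
    0 < (volume : Measure E).real (ball x r) :=
  ENNReal.toReal_pos (measure_ball_pos volume x hr).ne' measure_ball_lt_top.ne

theorem setAverage_ball (g : E → ℝ) (x : E) (r : ℝ) :
    ⨍ y in ball x r, g y = ((volume : Measure E).real (ball (0:E) r))⁻¹ * ∫ y in ball x r, g y := by
  rw [setAverage_eq, smul_eq_mul, Measure.addHaar_real_ball_center]

theorem setIntegral_ball_translate (G : E → ℝ) (x : E) (r : ℝ) :
    ∫ y in ball x r, G y = ∫ y in ball (0:E) r, G (x + y) := by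
  rw [← integral_indicator measurableSet_ball, ← integral_indicator measurableSet_ball,
    ← integral_add_left_eq_self _ x]
  congr 1
  funext y
  by_cases hy : y ∈ ball (0:E) r
  · have hy' : x + y ∈ ball x r := by
      rw [mem_ball, dist_self_add_left]
      exact mem_ball_zero_iff.1 hy
    rw [indicator_of_mem hy, indicator_of_mem hy']
  · have hy' : x + y ∉ ball x r := by
      rw [mem_ball, dist_self_add_left]
      exact fun hh => hy (mem_ball_zero_iff.2 hh)
    rw [indicator_of_notMem hy, indicator_of_notMem hy']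

theorem setAverage_ball_le {g : E → ℝ} (hg : Continuous g) {C : ℝ} (hC : ∀ y, g y ≤ C)
    (x : E) {r : ℝ} (hr : 0 < r) : ⨍ y in ball x r, g y ≤ C := by
  rw [setAverage_ball]
  have hV := volReal_ball_pos (0:E) hr
  have h1 : ∫ y in ball x r, g y ≤ ∫ _y in ball x r, C :=
    setIntegral_mono_on (integrableOn_ball hg x r) (integrableOn_const (by finiteness))
      measurableSet_ball (fun y _ => hC y)
  rw [setIntegral_const, smul_eq_mul, Measure.addHaar_real_ball_center] at h1
  rw [inv_mul_le_iff₀ hV]
  linarith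

theorem bddAbove_averages {f : E → ℝ} (hf : Continuous f) {C : ℝ} (hC : ∀ y, |f y| ≤ C)
    (x : E) : BddAbove (range fun r : Ioi (0:ℝ) => ⨍ y in ball x r, |f y|) := by
  refine ⟨C, ?_⟩
  rintro _ ⟨r, rfl⟩
  exact setAverage_ball_le hf.abs hC x r.2

/-- The centered maximal function of a bounded `K`-Lipschitz function is `K`-Lipschitz. -/
theorem lipschitz_centeredMaximal {f : E → ℝ} {K : ℝ≥0} (hf : LipschitzWith K f) {C : ℝ}
    (hC : ∀ y, |f y| ≤ C) : LipschitzWith K (centeredMaximal f) := by
  apply LipschitzWith.of_le_add_mul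
  intro x x'
  unfold centeredMaximal
  apply ciSup_le
  intro r
  have hr : 0 < (r:ℝ) := r.2
  have hV := volReal_ball_pos (0:E) hr
  have h1 : ⨍ y in ball x r, |f y| ≤ (⨍ y in ball x' r, |f y|) + K * dist x x' := by
    rw [setAverage_ball, setAverage_ball, setIntegral_ball_translate (fun y => |f y|) x,
      setIntegral_ball_translate (fun y => |f y|) x']
    have hc1 : Continuous fun y : E => |f (x + y)| := by
      have := hf.continuous
      fun_prop
    have hc2 : Continuous fun y : E => |f (x' + y)| + K * dist x x' := by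
      have := hf.continuous
      fun_prop
    have hc3 : Continuous fun y : E => |f (x' + y)| := by
      have := hf.continuous
      fun_prop
    have h2 : ∫ y in ball (0:E) r, |f (x + y)| ≤ ∫ y in ball (0:E) r, (|f (x' + y)| + K * dist x x') := by
      apply setIntegral_mono_on (integrableOn_ball hc1 0 r) (integrableOn_ball hc2 0 r)
        measurableSet_ball
      intro y _
      have h3 := hf.dist_le_mul (x + y) (x' + y)
      rw [dist_add_right, Real.dist_eq] at h3
      have h4 := abs_sub_abs_le_abs_sub (f (x + y)) (f (x' + y))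
      linarith
    rw [integral_add (integrableOn_ball hc3 0 r) (integrableOn_const (by finiteness)),
      setIntegral_const, smul_eq_mul] at h2
    rw [inv_mul_le_iff₀ hV]
    have h5 : (volume : Measure E).real (ball (0:E) r) *
        ((volume : Measure E).real (ball (0:E) r))⁻¹ = 1 := mul_inv_cancel₀ hV.ne'
    rw [mul_add, ← mul_assoc, h5, one_mul]
    exact h2
  refine h1.trans ?_
  have h6 := le_ciSup (bddAbove_averages hf.continuous hC x') r
  linarith

section Radial

variable {φ : ℝ → ℝ}

omit [InnerProductSpace ℝ E] [FiniteDimensional ℝ E] [MeasurableSpace E] [BorelSpace E] in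
theorem abs_radial (hpos : ∀ t, 0 ≤ t → 0 ≤ φ t) (y : E) : |φ ‖y‖| = φ ‖y‖ :=
  abs_of_nonneg (hpos _ (norm_nonneg y))

omit [InnerProductSpace ℝ E] [FiniteDimensional ℝ E] [MeasurableSpace E] [BorelSpace E] in
theorem radial_le (hanti : AntitoneOn φ (Ici 0)) (y : E) : φ ‖y‖ ≤ φ 0 :=
  hanti (mem_Ici.2 le_rfl) (mem_Ici.2 (norm_nonneg y)) (norm_nonneg y)

/-- The maximal function of a radially nonincreasing function is radially nonincreasing. -/
theorem centeredMaximal_anti (hφc : Continuous φ) (hanti : AntitoneOn φ (Ici 0))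
    (hpos : ∀ t, 0 ≤ t → 0 ≤ φ t) {x x' : E} (h : ‖x‖ ≤ ‖x'‖) :
    centeredMaximal (fun y : E => φ ‖y‖) x' ≤ centeredMaximal (fun y : E => φ ‖y‖) x := by
  unfold centeredMaximal
  have hC : ∀ y : E, |φ ‖y‖| ≤ φ 0 := fun y => by
    rw [abs_radial hpos]; exact radial_le hanti y
  have hc : Continuous fun y : E => φ ‖y‖ := hφc.comp continuous_norm
  apply ciSup_mono (bddAbove_averages hc hC x)
  intro r
  have hr : 0 < (r:ℝ) := r.2
  have hV := volReal_ball_pos (0:E) hr
  rw [setAverage_ball, setAverage_ball]
  simp only [abs_radial hpos]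
  exact mul_le_mul_of_nonneg_left (setIntegral_ball_anti hφc hanti h r) (inv_nonneg.2 hV.le)

theorem centeredMaximal_nonneg (f : E → ℝ) (x : E) : 0 ≤ centeredMaximal f x := by
  unfold centeredMaximal
  apply Real.iSup_nonneg
  intro r
  rw [setAverage_eq, smul_eq_mul]
  apply mul_nonneg (inv_nonneg.2 measureReal_nonneg)
  exact integral_nonneg (fun y => abs_nonneg _)

/-- Averages over balls centred at the origin are nonincreasing in the radius, and dominate
the value of the profile at the radius. -/
theorem origin_mono (hφc : Continuous φ) (hanti : AntitoneOn φ (Ici 0)) {s s' : ℝ}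
    (hs : 0 < s) (hss : s ≤ s') :
    (∫ y in ball (0:E) s', φ ‖y‖) * (volume : Measure E).real (ball (0:E) s)
        ≤ (∫ y in ball (0:E) s, φ ‖y‖) * (volume : Measure E).real (ball (0:E) s') ∧
      φ s * (volume : Measure E).real (ball (0:E) s) ≤ ∫ y in ball (0:E) s, φ ‖y‖ := by
  have hc : Continuous fun y : E => φ ‖y‖ := hφc.comp continuous_norm
  have hhc : Continuous fun y : E => φ ‖y‖ - φ s := hc.sub continuous_const
  have hsplit : ∀ t : ℝ, ∫ y in ball (0:E) t, (φ ‖y‖ - φ s)
      = (∫ y in ball (0:E) t, φ ‖y‖) - (volume : Measure E).real (ball (0:E) t) * φ s := by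
    intro t
    rw [integral_sub (integrableOn_ball hc 0 t) (integrableOn_const (by finiteness)),
      setIntegral_const, smul_eq_mul]
  have h1 : 0 ≤ ∫ y in ball (0:E) s, (φ ‖y‖ - φ s) := by
    apply setIntegral_nonneg measurableSet_ball
    intro y hy
    have hy' : ‖y‖ ≤ s := (mem_ball_zero_iff.1 hy).le
    have := hanti (mem_Ici.2 (norm_nonneg y)) (mem_Ici.2 hs.le) hy'
    linarith
  have h2 : ∫ y in ball (0:E) s', (φ ‖y‖ - φ s) ≤ ∫ y in ball (0:E) s, (φ ‖y‖ - φ s) := by
    rw [← integral_indicator measurableSet_ball, ← integral_indicator measurableSet_ball]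
    apply integral_mono (integrable_indicator_ball hhc 0 s') (integrable_indicator_ball hhc 0 s)
    intro y
    by_cases hy : y ∈ ball (0:E) s
    · have hy' : y ∈ ball (0:E) s' := ball_subset_ball hss hy
      simp only [indicator_of_mem hy, indicator_of_mem hy']
      exact le_rfl
    · by_cases hy' : y ∈ ball (0:E) s'
      · simp only [indicator_of_notMem hy, indicator_of_mem hy']
        have hy2 : s ≤ ‖y‖ := by
          by_contra hlt
          exact hy (mem_ball_zero_iff.2 (not_le.1 hlt))
        have := hanti (mem_Ici.2 hs.le) (mem_Ici.2 (norm_nonneg y)) hy2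
        linarith
      · simp only [indicator_of_notMem hy, indicator_of_notMem hy']
        exact le_rfl
  rw [hsplit s'] at h2
  rw [hsplit s] at h1 h2
  have hV : 0 ≤ (volume : Measure E).real (ball (0:E) s) := measureReal_nonneg
  have hVV : (volume : Measure E).real (ball (0:E) s) ≤ (volume : Measure E).real (ball (0:E) s') :=
    measureReal_mono (ball_subset_ball hss)
  constructor
  · nlinarith [mul_nonneg hV (sub_nonneg.2 h2), mul_nonneg h1 (sub_nonneg.2 hVV)]
  · linarith

/-- Pointwise bound of the maximal function of a radially nonincreasing function by the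
average over the ball of half the radius centred at the origin. -/
theorem centeredMaximal_le (hφc : Continuous φ) (hanti : AntitoneOn φ (Ici 0))
    (hpos : ∀ t, 0 ≤ t → 0 ≤ φ t) {x : E} (hx : x ≠ 0) :
    centeredMaximal (fun y : E => φ ‖y‖) x ≤ 3 ^ (Module.finrank ℝ E) *
      ((∫ y in ball (0:E) (‖x‖ / 2), φ ‖y‖) / (volume : Measure E).real (ball (0:E) (‖x‖ / 2))) := by
  have hc : Continuous fun y : E => φ ‖y‖ := hφc.comp continuous_norm
  have hxpos : 0 < ‖x‖ := norm_pos_iff.2 hx
  obtain ⟨s, hsdef⟩ : ∃ s : ℝ, s = ‖x‖ / 2 := ⟨_, rfl⟩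
  have hs : 0 < s := by rw [hsdef]; positivity
  rw [← hsdef]
  have hVs := volReal_ball_pos (0:E) hs
  have hφs := (origin_mono (E := E) hφc hanti hs le_rfl).2
  have hIs : 0 ≤ ∫ y in ball (0:E) s, φ ‖y‖ :=
    setIntegral_nonneg measurableSet_ball (fun y _ => hpos _ (norm_nonneg y))
  have hA : 0 ≤ (∫ y in ball (0:E) s, φ ‖y‖) / (volume : Measure E).real (ball (0:E) s) :=
    div_nonneg hIs hVs.le
  have h3 : (1:ℝ) ≤ 3 ^ (Module.finrank ℝ E) := one_le_pow₀ (by norm_num)
  unfold centeredMaximal
  apply ciSup_le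
  intro r
  have hr : 0 < (r:ℝ) := r.2
  have hVr := volReal_ball_pos (0:E) hr
  rw [setAverage_ball]
  simp only [abs_radial hpos]
  rw [inv_mul_le_iff₀ hVr]
  rcases le_or_gt (r:ℝ) s with hrs | hrs
  · -- small radius: the ball stays away from the origin
    have h1 : ∫ y in ball x r, φ ‖y‖ ≤ ∫ _y in ball x r, φ s := by
      apply setIntegral_mono_on (integrableOn_ball hc x r) (integrableOn_const (by finiteness))
        measurableSet_ball
      intro y hy
      have hy1 : ‖y - x‖ < r := by rwa [mem_ball, dist_eq_norm] at hy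
      have hy2 : ‖x‖ - ‖y‖ ≤ ‖y - x‖ := by
        rw [← norm_sub_rev]
        exact norm_sub_norm_le x y
      have hy3 : s ≤ ‖y‖ := by rw [hsdef] at hrs ⊢; linarith
      exact hanti (mem_Ici.2 hs.le) (mem_Ici.2 (norm_nonneg y)) hy3
    rw [setIntegral_const, smul_eq_mul, Measure.addHaar_real_ball_center] at h1
    have h4 : φ s ≤ (∫ y in ball (0:E) s, φ ‖y‖) / (volume : Measure E).real (ball (0:E) s) := by
      rw [le_div_iff₀ hVs]
      exact hφs
    have h5 : φ s ≤ 3 ^ (Module.finrank ℝ E) *
        ((∫ y in ball (0:E) s, φ ‖y‖) / (volume : Measure E).real (ball (0:E) s)) := by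
      nlinarith
    calc ∫ y in ball x r, φ ‖y‖ ≤ (volume : Measure E).real (ball (0:E) r) * φ s := h1
      _ ≤ _ := mul_le_mul_of_nonneg_left h5 hVr.le
  · -- large radius: the ball is contained in a ball centred at the origin
    obtain ⟨s', hs'def⟩ : ∃ s' : ℝ, s' = ‖x‖ + r := ⟨_, rfl⟩
    have hss' : s ≤ s' := by rw [hsdef, hs'def]; linarith
    have hs'3 : s' ≤ 3 * r := by rw [hsdef] at hrs; rw [hs'def]; linarith
    have hsub : ball x r ⊆ ball (0:E) s' := by
      intro y hy
      rw [mem_ball, dist_eq_norm] at hy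
      rw [mem_ball_zero_iff, hs'def]
      have : ‖y‖ ≤ ‖y - x‖ + ‖x‖ := by
        have := norm_add_le (y - x) x
        rwa [sub_add_cancel] at this
      linarith
    have h1 : ∫ y in ball x r, φ ‖y‖ ≤ ∫ y in ball (0:E) s', φ ‖y‖ := by
      apply setIntegral_mono_set (integrableOn_ball hc 0 s')
      · exact Filter.Eventually.of_forall (fun y => hpos _ (norm_nonneg y))
      · exact Filter.Eventually.of_forall hsub
    have h2 := (origin_mono (E := E) hφc hanti hs hss').1
    have h6 : (volume : Measure E).real (ball (0:E) (3 * r))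
        = 3 ^ (Module.finrank ℝ E) * (volume : Measure E).real (ball (0:E) r) := by
      rw [measureReal_def, Measure.addHaar_ball_mul_of_pos volume (0:E) (by norm_num : (0:ℝ) < 3) r,
        ENNReal.toReal_mul, ENNReal.toReal_ofReal (by positivity), measureReal_def]
    have h7 : (volume : Measure E).real (ball (0:E) s')
        ≤ 3 ^ (Module.finrank ℝ E) * (volume : Measure E).real (ball (0:E) r) := by
      rw [← h6]
      exact measureReal_mono (ball_subset_ball hs'3)
    have h8 : (∫ y in ball (0:E) s', φ ‖y‖) * (volume : Measure E).real (ball (0:E) s)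
        ≤ (∫ y in ball (0:E) s, φ ‖y‖) *
          (3 ^ (Module.finrank ℝ E) * (volume : Measure E).real (ball (0:E) r)) :=
      h2.trans (mul_le_mul_of_nonneg_left h7 hIs)
    have h9 : ∫ y in ball (0:E) s', φ ‖y‖ ≤ (volume : Measure E).real (ball (0:E) r) *
        (3 ^ (Module.finrank ℝ E) *
          ((∫ y in ball (0:E) s, φ ‖y‖) / (volume : Measure E).real (ball (0:E) s))) := by
      rw [← mul_div_assoc, ← mul_div_assoc, le_div_iff₀ hVs]
      linarith
    exact h1.trans h9

end Radial

end Vale.Agent.Lib.P137
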