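import Mathlib
import Vale.Agent.Lib.P137.Defs
import Vale.Agent.Lib.P137.ReflectGen
import Vale.Agent.Lib.P137.Maximal

namespace Vale.Agent.Lib.P137

open MeasureTheory Set Metric
open scoped ENNReal NNReal

section Coord

variable {ι : Type*} [Fintype ι]

/-- Moving the centre of a ball away from a coordinate hyperplane, in one coordinate only,
does not increase the integral of a block-decreasing function over the ball. -/
theorem setIntegral_ball_coord {g : EuclideanSpace ℝ ι → ℝ} (hgc : Continuous g)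
    (hBD : ∀ x y : EuclideanSpace ℝ ι, (∀ i, |x i| ≤ |y i|) → g y ≤ g x)
    {x x' : EuclideanSpace ℝ ι} (i : ι) (hi : |x i| ≤ |x' i|)
    (hne : ∀ j, j ≠ i → x' j = x j) (r : ℝ) :
    ∫ y in ball x' r, g y ≤ ∫ y in ball x r, g y := by
  classical
  by_cases hw0 : x' - x = 0
  · rw [sub_eq_zero.1 hw0]
  apply setIntegral_ball_reflect hgc hw0
  intro z hz
  apply hBD
  obtain ⟨c, hcdef⟩ : ∃ c : ℝ, c = x' i - x i := ⟨_, rfl⟩
  have hwj : ∀ j, j ≠ i → (x' - x) j = 0 := by
    intro j hj
    rw [PiLp.sub_apply, hne j hj, sub_self]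
  have hwi : (x' - x) i = c := by rw [PiLp.sub_apply, hcdef]
  have hinner : ∀ v : EuclideanSpace ℝ ι, inner ℝ (x' - x) v = c * v i := by
    intro v
    rw [PiLp.inner_apply, Finset.sum_eq_single i]
    · rw [hwi]
      simp [mul_comm]
    · intro j _ hj
      rw [hwj j hj]
      simp
    · intro h
      exact absurd (Finset.mem_univ i) h
  have hc : c ≠ 0 := by
    intro h0
    apply hw0
    ext j
    by_cases hj : j = i
    · rw [hj, hwi, h0]; rfl
    · rw [hwj j hj]; rfl
  have hnorm : ‖x' - x‖ ^ 2 = c ^ 2 := by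
    rw [← real_inner_self_eq_norm_sq, hinner, hwi]
    ring
  rw [hinner] at hz
  intro j
  rw [hinner, hnorm, PiLp.sub_apply, PiLp.smul_apply]
  by_cases hj : j = i
  · rw [hj, hwi]
    have hp : ((2:ℝ)⁻¹ • (x + x')) i = (2:ℝ)⁻¹ * (x i + x' i) := by
      rw [PiLp.smul_apply, PiLp.add_apply, smul_eq_mul]
    rw [PiLp.sub_apply, hp] at hz ⊢
    have e : z i - (2 * (c * (z i - (2:ℝ)⁻¹ * (x i + x' i)) / c ^ 2)) • c
        = (x i + x' i) - z i := by
      rw [smul_eq_mul]
      field_simp
      ring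
    rw [e]
    apply sq_le_sq.1
    have h1 : x i ^ 2 ≤ x' i ^ 2 := sq_le_sq.2 hi
    have h2 : 0 ≤ c * (x i + x' i) := by
      rw [hcdef]
      nlinarith
    have h3 : 0 ≤ c * ((x i + x' i) - 2 * z i) := by
      have : c * (z i - (2:ℝ)⁻¹ * (x i + x' i)) ≤ 0 := hz
      nlinarith
    have h4 : 0 ≤ c ^ 2 * ((x i + x' i) * ((x i + x' i) - 2 * z i)) := by
      have := mul_nonneg h2 h3
      nlinarith
    have h5 : 0 ≤ (x i + x' i) * ((x i + x' i) - 2 * z i) := by
      by_contra hneg
      rw [not_le] at hneg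
      have hc2 : 0 < c ^ 2 := by positivity
      nlinarith
    nlinarith
  · rw [hwj j hj]
    simp

end Coord

end Vale.Agent.Lib.P137
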