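import Mathlib
import Vale.Agent.Lib.P137.Defs
import Vale.Agent.Lib.P137.Block
import Vale.Agent.Lib.P137.Maximal

namespace Vale.Agent.Lib.P137

open MeasureTheory Set Metric
open scoped ENNReal NNReal

variable {ι : Type*} [Fintype ι]

/-- Moving the centre of a ball away from all coordinate hyperplanes does not increase the
integral of a block-decreasing function over the ball. -/
theorem setIntegral_ball_block {g : EuclideanSpace ℝ ι → ℝ} (hgc : Continuous g)
    (hBD : ∀ x y : EuclideanSpace ℝ ι, (∀ i, |x i| ≤ |y i|) → g y ≤ g x)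
    {x y : EuclideanSpace ℝ ι} (hxy : ∀ i, |x i| ≤ |y i|) (r : ℝ) :
    ∫ z in ball y r, g z ≤ ∫ z in ball x r, g z := by
  classical
  have key : ∀ s : Finset ι,
      ∫ z in ball (WithLp.toLp 2 (fun j => if j ∈ s then y j else x j) : EuclideanSpace ℝ ι) r,
        g z ≤ ∫ z in ball x r, g z := by
    intro s
    induction s using Finset.induction_on with
    | empty =>
      have e : (WithLp.toLp 2 (fun j => if j ∈ (∅ : Finset ι) then y j else x j) :
          EuclideanSpace ℝ ι) = x := by
        ext j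
        simp
      rw [e]
    | insert a s ha ih =>
      refine le_trans ?_ ih
      apply setIntegral_ball_coord hgc hBD a
      · simp only [Finset.mem_insert, true_or, if_true, ha, if_false]
        exact hxy a
      · intro j hj
        simp only [Finset.mem_insert, hj, false_or]
  have h := key Finset.univ
  have e : (WithLp.toLp 2 (fun j => if j ∈ (Finset.univ : Finset ι) then y j else x j) :
      EuclideanSpace ℝ ι) = y := by
    ext j
    simp
  rwa [e] at h

omit [Fintype ι] in
/-- A block-decreasing function is bounded above by its value at the origin. -/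
theorem block_le_zero {f : EuclideanSpace ℝ ι → ℝ}
    (hBD : ∀ x y : EuclideanSpace ℝ ι, (∀ i, |x i| ≤ |y i|) → f y ≤ f x)
    (y : EuclideanSpace ℝ ι) : f y ≤ f 0 :=
  hBD 0 y (fun i => by simp)

/-- A block-decreasing function vanishing outside a ball is nonnegative. -/
theorem block_nonneg [Nonempty ι] {f : EuclideanSpace ℝ ι → ℝ}
    (hBD : ∀ x y : EuclideanSpace ℝ ι, (∀ i, |x i| ≤ |y i|) → f y ≤ f x)
    {R : ℝ} (hR : ∀ x, R ≤ ‖x‖ → f x = 0) (x : EuclideanSpace ℝ ι) : 0 ≤ f x := by
  classical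
  obtain ⟨j₀⟩ := ‹Nonempty ι›
  obtain ⟨y, hy⟩ : ∃ y : EuclideanSpace ℝ ι,
      y = WithLp.toLp 2 (fun j => if j = j₀ then max |x j₀| |R| else x j) := ⟨_, rfl⟩
  have hyj : y j₀ = max |x j₀| |R| := by
    rw [hy]
    simp
  have h1 : ∀ i, |x i| ≤ |y i| := by
    intro i
    by_cases hi : i = j₀
    · rw [hi, hyj]
      exact le_trans (le_max_left _ _) (le_abs_self _)
    · rw [hy]
      simp [hi]
  have h2 : R ≤ ‖y‖ := by
    have h3 : ‖y j₀‖ ≤ ‖y‖ := PiLp.norm_apply_le y j₀
    rw [hyj, Real.norm_eq_abs] at h3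
    exact le_trans (le_abs_self R) (le_trans (le_max_right _ _) (le_trans (le_abs_self _) h3))
  have h4 := hBD x y h1
  rw [hR y h2] at h4
  exact h4

/-- The centered maximal function of a nonnegative block-decreasing function is
block-decreasing. -/
theorem centeredMaximal_block {f : EuclideanSpace ℝ ι → ℝ} (hf : Continuous f)
    (hBD : ∀ x y : EuclideanSpace ℝ ι, (∀ i, |x i| ≤ |y i|) → f y ≤ f x)
    (h0 : ∀ x, 0 ≤ f x) {x y : EuclideanSpace ℝ ι} (hxy : ∀ i, |x i| ≤ |y i|) :
    centeredMaximal f y ≤ centeredMaximal f x := by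
  unfold centeredMaximal
  have hC : ∀ z, |f z| ≤ f 0 := fun z => by
    rw [abs_of_nonneg (h0 z)]
    exact block_le_zero hBD z
  apply ciSup_mono (bddAbove_averages hf hC x)
  intro r
  have hr : 0 < (r:ℝ) := r.2
  have hV := volReal_ball_pos (0:EuclideanSpace ℝ ι) hr
  rw [setAverage_ball, setAverage_ball]
  simp only [abs_of_nonneg (h0 _)]
  exact mul_le_mul_of_nonneg_left (setIntegral_ball_block hf hBD hxy r) (inv_nonneg.2 hV.le)

/-- The gradient of a Lipschitz function vanishing outside a ball is integrable. -/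
theorem lintegral_fderiv_lt_top {f : EuclideanSpace ℝ ι → ℝ} {K : ℝ≥0}
    (hL : LipschitzWith K f) {R : ℝ} (hR : ∀ x, R ≤ ‖x‖ → f x = 0) :
    ∫⁻ x, ‖fderiv ℝ f x‖ₑ < ∞ := by
  have hbound : ∀ x : EuclideanSpace ℝ ι,
      ‖fderiv ℝ f x‖ₑ ≤ (closedBall (0 : EuclideanSpace ℝ ι) R).indicator (fun _ => (K : ℝ≥0∞)) x := by
    intro x
    by_cases hx : x ∈ closedBall (0 : EuclideanSpace ℝ ι) R
    · rw [indicator_of_mem hx]
      have h1 : ‖fderiv ℝ f x‖ ≤ K := norm_fderiv_le_of_lipschitz ℝ hL
      rw [← ofReal_norm, ← ENNReal.ofReal_coe_nnreal]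
      exact ENNReal.ofReal_le_ofReal h1
    · rw [indicator_of_notMem hx]
      have hx' : R < ‖x‖ := by
        rw [mem_closedBall, dist_zero_right, not_le] at hx
        exact hx
      have hev : f =ᶠ[nhds x] fun _ => (0:ℝ) := by
        have hopen : IsOpen {z : EuclideanSpace ℝ ι | R < ‖z‖} :=
          isOpen_lt continuous_const continuous_norm
        filter_upwards [hopen.mem_nhds hx'] with z hz
        exact hR z (le_of_lt hz)
      rw [hev.fderiv_eq]
      have hz : fderiv ℝ (fun _ : EuclideanSpace ℝ ι => (0:ℝ)) x = 0 := by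
        rw [fderiv_fun_const]
        rfl
      rw [hz, ← ofReal_norm, norm_zero, ENNReal.ofReal_zero]
  calc ∫⁻ x, ‖fderiv ℝ f x‖ₑ
      ≤ ∫⁻ x, (closedBall (0 : EuclideanSpace ℝ ι) R).indicator (fun _ => (K : ℝ≥0∞)) x :=
        lintegral_mono hbound
    _ = K * volume (closedBall (0 : EuclideanSpace ℝ ι) R) := by
        rw [lintegral_indicator measurableSet_closedBall, setLIntegral_const]
    _ < ∞ := ENNReal.mul_lt_top ENNReal.coe_lt_top measure_closedBall_lt_top

end Vale.Agent.Lib.P137
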