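import Mathlib

namespace Vale.Agent.Lib.P137

open MeasureTheory Set
open scoped ENNReal NNReal

theorem lintegral_Ioi_inv_sq {c : ℝ} (hc : 0 < c) :
    ∫⁻ ρ in Ioi c, ENNReal.ofReal ((ρ ^ 2)⁻¹) = ENNReal.ofReal (c⁻¹) := by
  have h1 : ∫ ρ in Ioi c, (ρ ^ 2)⁻¹ = c⁻¹ := by
    have h2 : ∫ ρ in Ioi c, (ρ ^ 2)⁻¹ = ∫ ρ in Ioi c, ρ ^ (-2:ℝ) := by
      apply setIntegral_congr_fun measurableSet_Ioi
      intro ρ hρ
      have hρ0 : 0 ≤ ρ := (hc.trans hρ).le
      show (ρ ^ 2)⁻¹ = ρ ^ (-2:ℝ)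
      rw [Real.rpow_neg hρ0, Real.rpow_two]
    rw [h2, integral_Ioi_rpow_of_lt (by norm_num) hc]
    have : (-2:ℝ) + 1 = -1 := by norm_num
    rw [this, Real.rpow_neg_one]
    ring
  have hint : IntegrableOn (fun ρ : ℝ => (ρ ^ 2)⁻¹) (Ioi c) := by
    have h3 := integrableOn_Ioi_rpow_of_lt (a := -2) (by norm_num) hc
    refine h3.congr_fun ?_ measurableSet_Ioi
    intro ρ hρ
    have hρ0 : 0 ≤ ρ := (hc.trans hρ).le
    show ρ ^ (-2:ℝ) = (ρ ^ 2)⁻¹
    rw [Real.rpow_neg hρ0, Real.rpow_two]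
  rw [← h1, ofReal_integral_eq_lintegral_ofReal hint]
  exact Filter.Eventually.of_forall (fun ρ => by positivity)

/-- The Hardy-type identity obtained from Tonelli's theorem. -/
theorem hardy_swap (g : ℝ → ℝ≥0∞) (hg : Measurable g) :
    ∫⁻ ρ in Ioi (0:ℝ), ENNReal.ofReal ((ρ ^ 2)⁻¹) * ∫⁻ t in Ioo (0:ℝ) (ρ / 2), g t
      = ∫⁻ t in Ioi (0:ℝ), g t * ENNReal.ofReal ((2 * t)⁻¹) := by
  have hS : MeasurableSet {p : ℝ × ℝ | p.2 < p.1 / 2} :=
    measurableSet_lt measurable_snd (measurable_fst.div_const 2)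
  have hF : Measurable (Function.uncurry fun (ρ t : ℝ) =>
      ENNReal.ofReal ((ρ ^ 2)⁻¹) * (Iio (ρ / 2)).indicator g t) := by
    have h1 : (Function.uncurry fun (ρ t : ℝ) =>
        ENNReal.ofReal ((ρ ^ 2)⁻¹) * (Iio (ρ / 2)).indicator g t)
        = fun p : ℝ × ℝ => ENNReal.ofReal ((p.1 ^ 2)⁻¹) *
          ({p : ℝ × ℝ | p.2 < p.1 / 2}).indicator (fun p => g p.2) p := by
      funext p
      simp only [Function.uncurry, indicator, mem_Iio, mem_ofPred_eq]
    rw [h1]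
    apply Measurable.mul
    · fun_prop
    · exact (hg.comp measurable_snd).indicator hS
  calc ∫⁻ ρ in Ioi (0:ℝ), ENNReal.ofReal ((ρ ^ 2)⁻¹) * ∫⁻ t in Ioo (0:ℝ) (ρ / 2), g t
      = ∫⁻ ρ in Ioi (0:ℝ), ∫⁻ t in Ioi (0:ℝ),
          ENNReal.ofReal ((ρ ^ 2)⁻¹) * (Iio (ρ / 2)).indicator g t := by
        apply lintegral_congr
        intro ρ
        rw [lintegral_const_mul _ (hg.indicator measurableSet_Iio),
          lintegral_indicator measurableSet_Iio, Measure.restrict_restrict measurableSet_Iio]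
        have hset : Iio (ρ / 2) ∩ Ioi (0:ℝ) = Ioo 0 (ρ / 2) := by
          ext t
          simp only [mem_inter_iff, mem_Iio, mem_Ioi, mem_Ioo]
          exact and_comm
        rw [hset]
    _ = ∫⁻ t in Ioi (0:ℝ), ∫⁻ ρ in Ioi (0:ℝ),
          ENNReal.ofReal ((ρ ^ 2)⁻¹) * (Iio (ρ / 2)).indicator g t :=
        lintegral_lintegral_swap hF.aemeasurable
    _ = ∫⁻ t in Ioi (0:ℝ), g t * ENNReal.ofReal ((2 * t)⁻¹) := by
        apply setLIntegral_congr_fun measurableSet_Ioi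
        intro t ht
        have ht' : (0:ℝ) < 2 * t := by
          have : (0:ℝ) < t := ht
          positivity
        have h2 : ∀ ρ : ℝ, ENNReal.ofReal ((ρ ^ 2)⁻¹) * (Iio (ρ / 2)).indicator g t
            = (Ioi (2 * t)).indicator (fun ρ => ENNReal.ofReal ((ρ ^ 2)⁻¹) * g t) ρ := by
          intro ρ
          by_cases hρ : 2 * t < ρ
          · have : t ∈ Iio (ρ / 2) := by rw [mem_Iio]; linarith
            rw [indicator_of_mem this, indicator_of_mem (mem_Ioi.2 hρ)]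
          · have : t ∉ Iio (ρ / 2) := by rw [mem_Iio]; intro hh; apply hρ; linarith
            have hρ' : ρ ∉ Ioi (2 * t) := hρ
            rw [indicator_of_notMem this, indicator_of_notMem hρ', mul_zero]
        simp only [h2]
        rw [lintegral_indicator measurableSet_Ioi, Measure.restrict_restrict measurableSet_Ioi,
          inter_eq_left.2 (Ioi_subset_Ioi ht'.le), lintegral_mul_const _ (by fun_prop),
          lintegral_Ioi_inv_sq ht', mul_comm]

end Vale.Agent.Lib.P137
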