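import Mathlib
import Vale.Agent.Lib.P137.Defs

namespace Vale.Agent.Lib.P137

open MeasureTheory Set Metric
open scoped ENNReal NNReal

/-- The integral of `G` over the coordinate hyperplane `{x | x i = 0}` of `ℝ^ι`, with
respect to the Lebesgue measure in the remaining coordinates (an iterated integral over
all coordinates except `i`, evaluated at the point where the `i`-th coordinate is `0`). -/
noncomputable def hyperInt {ι : Type*} [Fintype ι] [DecidableEq ι] (i : ι)
    (G : EuclideanSpace ℝ ι → ℝ≥0∞) : ℝ≥0∞ :=
  (∫⋯∫⁻_Finset.univ.erase i, (fun p : ι → ℝ => G (WithLp.toLp 2 p))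
    ∂(fun _ : ι => (volume : Measure ℝ))) 0

/-- The one-dimensional slice of `g` through `x` in the direction of the `i`-th coordinate. -/
noncomputable def slice {ι : Type*} [Fintype ι] [DecidableEq ι] (g : EuclideanSpace ℝ ι → ℝ)
    (i : ι) (x : EuclideanSpace ℝ ι) (s : ℝ) : ℝ :=
  g (WithLp.toLp 2 (Function.update (WithLp.ofLp x) i s))

end Vale.Agent.Lib.P137
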