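import Mathlib
import Vale.Agent.Lib.P137.Hyper
namespace Vale.Agent.Lib.P137
open MeasureTheory Set Metric
open scoped ENNReal NNReal
variable {ι : Type*} [Fintype ι] [DecidableEq ι]

/-- Auxiliary integrand for the Hardy-type bound: on the region `|p a| ≤ |p b|` it is the value
of `g` at the projection of `p` to the hyperplane `p a = 0`, divided by `|p b|`. -/
noncomputable def hardyMaxAux (g : (ι → ℝ) → ℝ≥0∞) (a b : ι) (p : ι → ℝ) : ℝ≥0∞ :=
  if |p a| ≤ |p b| then g (Function.update p a 0) / ENNReal.ofReal |p b| else 0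

theorem hardyMaxAux_measurable {g : (ι → ℝ) → ℝ≥0∞} (hg : Measurable g) (a b : ι) :
    Measurable (hardyMaxAux g a b) := by
  unfold hardyMaxAux
  refine Measurable.ite ?_ ?_ measurable_const
  · exact measurableSet_le (continuous_abs.measurable.comp (measurable_pi_apply a))
      (continuous_abs.measurable.comp (measurable_pi_apply b))
  · refine Measurable.div ?_ ?_
    · exact hg.comp (measurable_update_left)
    · exact ENNReal.measurable_ofReal.comp (continuous_abs.measurable.comp (measurable_pi_apply b))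

theorem hardyMaxAux_inner_le (g : (ι → ℝ) → ℝ≥0∞) {a b : ι} (hab : b ≠ a) (x : ι → ℝ) :
    ∫⁻ t, hardyMaxAux g a b (Function.update x a t) ≤ 2 * g (Function.update x a 0) := by
  have h1 : ∀ t : ℝ, hardyMaxAux g a b (Function.update x a t)
      = (Icc (-|x b|) |x b|).indicator
          (fun _ => g (Function.update x a 0) / ENNReal.ofReal |x b|) t := by
    intro t
    unfold hardyMaxAux
    rw [Function.update_idem, Function.update_self, Function.update_of_ne hab]
    by_cases h : |t| ≤ |x b|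
    · rw [if_pos h, Set.indicator_of_mem (show t ∈ Icc (-|x b|) |x b| from abs_le.mp h)]
    · rw [if_neg h, Set.indicator_of_notMem
        (show t ∉ Icc (-|x b|) |x b| from fun hm => h (abs_le.mpr hm))]
  simp_rw [h1]
  rw [lintegral_indicator_const measurableSet_Icc, Real.volume_Icc]
  by_cases hb : x b = 0
  · simp [hb]
  · have hpos : 0 < |x b| := abs_pos.mpr hb
    have h2 : ENNReal.ofReal (|x b| - -|x b|) = ENNReal.ofReal |x b| * 2 := by
      rw [show |x b| - -|x b| = |x b| * 2 by ring, ENNReal.ofReal_mul (abs_nonneg _)]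
      simp
    rw [h2, ← mul_assoc, ENNReal.div_mul_cancel (by simpa using hb) ENNReal.ofReal_ne_top,
      mul_comm]

theorem lintegral_hardyMaxAux_le {g : (ι → ℝ) → ℝ≥0∞} (hg : Measurable g) {a b : ι}
    (hab : b ≠ a) :
    ∫⁻ p : ι → ℝ, hardyMaxAux g a b p ≤
      2 * (∫⋯∫⁻_Finset.univ.erase a, g ∂(fun _ : ι => (volume : Measure ℝ))) 0 := by
  rw [volume_pi, lintegral_eq_lmarginal_univ (0 : ι → ℝ),
    lmarginal_erase' _ (hardyMaxAux_measurable hg a b) (Finset.mem_univ a)]
  calc (∫⋯∫⁻_Finset.univ.erase a,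
          (fun x => ∫⁻ t, hardyMaxAux g a b (Function.update x a t))
          ∂(fun _ : ι => (volume : Measure ℝ))) 0
      ≤ (∫⋯∫⁻_Finset.univ.erase a, (fun x => 2 * g (Function.update x a 0))
          ∂(fun _ : ι => (volume : Measure ℝ))) 0 :=
        lmarginal_mono (fun x => hardyMaxAux_inner_le g hab x) 0
    _ = 2 * (∫⋯∫⁻_Finset.univ.erase a, g ∂(fun _ : ι => (volume : Measure ℝ))) 0 := by
        unfold lmarginal
        rw [← lintegral_const_mul' _ _ (by norm_num)]
        congr 1
        funext y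
        show 2 * g (Function.update (Function.updateFinset 0 (Finset.univ.erase a) y) a 0) = _
        congr 2
        rw [Function.update_eq_self_iff]
        simp [Function.updateFinset_def]

theorem hardyMax_pointwise {g : (ι → ℝ) → ℝ≥0∞}
    (hgBD : ∀ p q : ι → ℝ, (∀ j, |p j| ≤ |q j|) → g q ≤ g p) (a b : ι) (p : ι → ℝ) :
    g p / ENNReal.ofReal (max |p a| |p b|) ≤ hardyMaxAux g a b p + hardyMaxAux g b a p := by
  have key : ∀ c : ι, ∀ j, |Function.update p c 0 j| ≤ |p j| := by
    intro c j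
    by_cases hj : j = c
    · subst hj; simp
    · rw [Function.update_of_ne hj]
  rcases le_total |p a| |p b| with h | h
  · rw [max_eq_right h]
    refine le_trans ?_ le_self_add
    unfold hardyMaxAux
    rw [if_pos h]
    exact ENNReal.div_le_div_right (hgBD _ _ (key a)) _
  · rw [max_eq_left h]
    refine le_trans ?_ le_add_self
    unfold hardyMaxAux
    rw [if_pos h]
    exact ENNReal.div_le_div_right (hgBD _ _ (key b)) _

theorem lintegral_div_max_le {f : EuclideanSpace ℝ ι → ℝ} (hf : Continuous f)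
    (hBD : ∀ x y : EuclideanSpace ℝ ι, (∀ i, |x i| ≤ |y i|) → f y ≤ f x)
    (h0 : ∀ x, 0 ≤ f x) (i k : ι) (hik : k ≠ i) :
    ∫⁻ z : EuclideanSpace ℝ ι, ENNReal.ofReal (f z) / ENNReal.ofReal (max |z i| |z k|)
      ≤ 2 * hyperInt i (fun x => ENNReal.ofReal (f x))
        + 2 * hyperInt k (fun x => ENNReal.ofReal (f x)) := by
  set g : (ι → ℝ) → ℝ≥0∞ := fun p => ENNReal.ofReal (f (WithLp.toLp 2 p)) with hg
  have hgm : Measurable g :=
    ENNReal.measurable_ofReal.comp (hf.measurable.comp (WithLp.measurable_toLp 2 _))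
  have hgBD : ∀ p q : ι → ℝ, (∀ j, |p j| ≤ |q j|) → g q ≤ g p := fun p q h =>
    ENNReal.ofReal_le_ofReal (hBD _ _ h)
  have e1 : ∫⁻ z : EuclideanSpace ℝ ι, ENNReal.ofReal (f z) / ENNReal.ofReal (max |z i| |z k|)
      = ∫⁻ p : ι → ℝ, g p / ENNReal.ofReal (max |p i| |p k|) := by
    rw [← (PiLp.volume_preserving_toLp ι).lintegral_comp_emb
      (MeasurableEquiv.toLp 2 (ι → ℝ)).measurableEmbedding]
  rw [e1]
  calc ∫⁻ p : ι → ℝ, g p / ENNReal.ofReal (max |p i| |p k|)
      ≤ ∫⁻ p : ι → ℝ, (hardyMaxAux g i k p + hardyMaxAux g k i p) :=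
        lintegral_mono (fun p => hardyMax_pointwise hgBD i k p)
    _ = (∫⁻ p, hardyMaxAux g i k p) + ∫⁻ p, hardyMaxAux g k i p :=
        lintegral_add_left (hardyMaxAux_measurable hgm i k) _
    _ ≤ _ := add_le_add (lintegral_hardyMaxAux_le hgm hik) (lintegral_hardyMaxAux_le hgm hik.symm)

end Vale.Agent.Lib.P137
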