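import Mathlib

namespace Vale.Agent.Lib.P137

open MeasureTheory Set
open scoped ENNReal NNReal

/-- Integration by parts on `[0, b]` against a power weight, for a Lipschitz function. -/
theorem ibp_pow {γ : ℝ → ℝ} {K : ℝ≥0} (hγ : LipschitzWith K γ) {n : ℕ} (hn : 1 ≤ n)
    (b : ℝ) :
    ∫ t in (0:ℝ)..b, t ^ n * deriv γ t
      = b ^ n * γ b - n * ∫ t in (0:ℝ)..b, t ^ (n - 1) * γ t := by
  have h1 : AbsolutelyContinuousOnInterval (fun t : ℝ => t ^ n) 0 b := by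
    apply ContDiffOn.absolutelyContinuousOnInterval
    exact (contDiff_id.pow n).contDiffOn
  have h2 : AbsolutelyContinuousOnInterval γ 0 b :=
    (hγ.lipschitzOnWith (s := uIcc 0 b)).absolutelyContinuousOnInterval
  rw [h1.integral_mul_deriv_eq_deriv_mul h2]
  have h0 : (0:ℝ) ^ n = 0 := zero_pow (by omega)
  simp only [h0, zero_mul, sub_zero]
  congr 1
  rw [← intervalIntegral.integral_const_mul]
  congr 1
  funext t
  simp [mul_assoc]

theorem deriv_nonpos_of_antitoneOn {γ : ℝ → ℝ} (hanti : AntitoneOn γ (Ici 0)) {t : ℝ}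
    (ht : 0 < t) : deriv γ t ≤ 0 := by
  rw [← derivWithin_of_mem_nhds (Ici_mem_nhds ht)]
  exact hanti.derivWithin_nonpos

theorem lintegral_pow_mul_deriv {γ : ℝ → ℝ} {K : ℝ≥0} (hγ : LipschitzWith K γ)
    (hanti : AntitoneOn γ (Ici 0)) (n : ℕ) {b : ℝ} (hb : 0 ≤ b) :
    ∫⁻ t in Ioc 0 b, ENNReal.ofReal (t ^ n) * ‖deriv γ t‖ₑ
      = ENNReal.ofReal (-∫ t in (0:ℝ)..b, t ^ n * deriv γ t) := by
  have h2 : AbsolutelyContinuousOnInterval γ 0 b :=
    (hγ.lipschitzOnWith (s := uIcc 0 b)).absolutelyContinuousOnInterval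
  have hint : IntervalIntegrable (fun t : ℝ => t ^ n * deriv γ t) volume 0 b :=
    h2.intervalIntegrable_deriv.continuousOn_mul (continuous_pow n).continuousOn
  rw [← intervalIntegral.integral_neg, intervalIntegral.integral_of_le hb,
    ofReal_integral_eq_lintegral_ofReal]
  · apply setLIntegral_congr_fun measurableSet_Ioc
    intro t ht
    have h1 : deriv γ t ≤ 0 := deriv_nonpos_of_antitoneOn hanti ht.1
    have h3 : ‖deriv γ t‖ₑ = ENNReal.ofReal (-deriv γ t) := by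
      rw [← ofReal_norm, Real.norm_eq_abs, abs_of_nonpos h1]
    simp only [h3]
    rw [← ENNReal.ofReal_mul (pow_nonneg ht.1.le n)]
    congr 1
    ring
  · exact (hint.1).neg
  · filter_upwards [ae_restrict_mem measurableSet_Ioc] with t ht
    have h1 : deriv γ t ≤ 0 := deriv_nonpos_of_antitoneOn hanti ht.1
    have := pow_nonneg ht.1.le n
    simp only [Pi.zero_apply]
    nlinarith

theorem lintegral_pow_mul {γ : ℝ → ℝ} (hγ : Continuous γ)
    (hpos : ∀ t, 0 ≤ t → 0 ≤ γ t) (m : ℕ) {b : ℝ} (hb : 0 ≤ b) :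
    ∫⁻ t in Ioc 0 b, ENNReal.ofReal (t ^ m * γ t)
      = ENNReal.ofReal (∫ t in (0:ℝ)..b, t ^ m * γ t) := by
  have hint : IntervalIntegrable (fun t : ℝ => t ^ m * γ t) volume 0 b :=
    ((continuous_pow m).mul hγ).intervalIntegrable _ _
  rw [intervalIntegral.integral_of_le hb, ofReal_integral_eq_lintegral_ofReal hint.1]
  filter_upwards [ae_restrict_mem measurableSet_Ioc] with t ht
  exact mul_nonneg (pow_nonneg ht.1.le m) (hpos t ht.1.le)

/-- Upper bound for the weighted variation of a nonincreasing Lipschitz profile. -/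
theorem variation_le {γ : ℝ → ℝ} {K : ℝ≥0} (hγ : LipschitzWith K γ)
    (hanti : AntitoneOn γ (Ici 0)) (hpos : ∀ t, 0 ≤ t → 0 ≤ γ t) {n : ℕ} (hn : 1 ≤ n) :
    ∫⁻ t in Ioi (0:ℝ), ENNReal.ofReal (t ^ n) * ‖deriv γ t‖ₑ
      ≤ (n:ℝ≥0∞) * ∫⁻ t in Ioi (0:ℝ), ENNReal.ofReal (t ^ (n - 1) * γ t) := by
  have hU : Ioi (0:ℝ) = ⋃ k : ℕ, Ioc (0:ℝ) k := by
    ext t
    simp only [mem_Ioi, mem_iUnion, mem_Ioc]
    constructor
    · intro ht
      obtain ⟨k, hk⟩ := exists_nat_ge t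
      exact ⟨k, ht, hk⟩
    · rintro ⟨k, ht, -⟩
      exact ht
  have hdir : Directed (· ⊆ ·) (fun k : ℕ => Ioc (0:ℝ) k) := by
    apply Monotone.directed_le
    intro i j hij
    exact Ioc_subset_Ioc_right (by exact_mod_cast hij)
  conv_lhs => rw [hU]
  rw [setLIntegral_iUnion_of_directed _ hdir]
  apply iSup_le
  intro k
  have hk : (0:ℝ) ≤ k := Nat.cast_nonneg k
  rw [lintegral_pow_mul_deriv hγ hanti n hk, ibp_pow hγ hn]
  have h1 : 0 ≤ (k:ℝ) ^ n * γ k := mul_nonneg (pow_nonneg hk n) (hpos _ hk)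
  calc ENNReal.ofReal (-((k:ℝ) ^ n * γ k - n * ∫ t in (0:ℝ)..k, t ^ (n - 1) * γ t))
      ≤ ENNReal.ofReal (n * ∫ t in (0:ℝ)..k, t ^ (n - 1) * γ t) := by
        apply ENNReal.ofReal_le_ofReal
        linarith
    _ = (n:ℝ≥0∞) * ∫⁻ t in Ioc (0:ℝ) k, ENNReal.ofReal (t ^ (n - 1) * γ t) := by
        rw [lintegral_pow_mul hγ.continuous hpos (n - 1) hk,
          ENNReal.ofReal_mul (Nat.cast_nonneg n), ENNReal.ofReal_natCast]
    _ ≤ _ := by
        gcongr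
        exact Ioc_subset_Ioi_self

/-- Lower bound for the weighted variation of a nonincreasing Lipschitz profile that
vanishes beyond `R`. -/
theorem le_variation {φ : ℝ → ℝ} {K : ℝ≥0} (hφ : LipschitzWith K φ)
    (hanti : AntitoneOn φ (Ici 0)) {R : ℝ} (hR : ∀ t, R ≤ t → φ t = 0) {n : ℕ}
    (hn : 1 ≤ n) :
    (n:ℝ≥0∞) * ∫⁻ t in Ioi (0:ℝ), ENNReal.ofReal (t ^ (n - 1) * φ t)
      ≤ ∫⁻ t in Ioi (0:ℝ), ENNReal.ofReal (t ^ n) * ‖deriv φ t‖ₑ := by
  have hpos : ∀ t, 0 ≤ t → 0 ≤ φ t := by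
    intro t ht
    have h1 := hanti (mem_Ici.2 ht) (mem_Ici.2 (le_trans ht (le_max_left t R)))
      (le_max_left t R)
    rw [hR _ (le_max_right t R)] at h1
    exact h1
  set b : ℝ := max R 1 with hbdef
  have hb : 0 ≤ b := le_trans zero_le_one (le_max_right R 1)
  have hφb : φ b = 0 := hR _ (le_max_left R 1)
  have hcut : ∫⁻ t in Ioi (0:ℝ), ENNReal.ofReal (t ^ (n - 1) * φ t)
      = ∫⁻ t in Ioc (0:ℝ) b, ENNReal.ofReal (t ^ (n - 1) * φ t) := by
    have hI : Ioi (0:ℝ) = Ioc 0 b ∪ Ioi b := (Ioc_union_Ioi_eq_Ioi hb).symm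
    rw [hI, lintegral_union measurableSet_Ioi]
    · rw [setLIntegral_eq_zero measurableSet_Ioi, add_zero]
      intro t ht
      simp [hR t (le_trans (le_max_left R 1) (le_of_lt ht))]
    · exact Ioc_disjoint_Ioi le_rfl
  rw [hcut, lintegral_pow_mul hφ.continuous hpos (n - 1) hb, ← ENNReal.ofReal_natCast,
    ← ENNReal.ofReal_mul (Nat.cast_nonneg n)]
  have h3 : (n:ℝ) * ∫ t in (0:ℝ)..b, t ^ (n - 1) * φ t
      = -∫ t in (0:ℝ)..b, t ^ n * deriv φ t := by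
    rw [ibp_pow hφ hn, hφb]
    ring
  rw [h3, ← lintegral_pow_mul_deriv hφ hanti n hb]
  exact lintegral_mono_set Ioc_subset_Ioi_self

/-- The weighted variation of a Lipschitz nonincreasing profile vanishing beyond `R` is
finite. -/
theorem variation_lt_top {φ : ℝ → ℝ} {K : ℝ≥0} (hφ : LipschitzWith K φ)
    (hanti : AntitoneOn φ (Ici 0)) {R : ℝ} (hR : ∀ t, R ≤ t → φ t = 0) (n : ℕ) :
    ∫⁻ t in Ioi (0:ℝ), ENNReal.ofReal (t ^ n) * ‖deriv φ t‖ₑ < ∞ := by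
  obtain ⟨b, hbdef⟩ : ∃ b : ℝ, b = max R 1 := ⟨_, rfl⟩
  have hb : 0 ≤ b := by rw [hbdef]; exact le_trans zero_le_one (le_max_right R 1)
  have hRb : R ≤ b := by rw [hbdef]; exact le_max_left R 1
  have hI : Ioi (0:ℝ) = Ioc 0 b ∪ Ioi b := (Ioc_union_Ioi_eq_Ioi hb).symm
  rw [hI, lintegral_union measurableSet_Ioi (Ioc_disjoint_Ioi le_rfl),
    lintegral_pow_mul_deriv hφ hanti n hb]
  have h0 : ∫⁻ t in Ioi b, ENNReal.ofReal (t ^ n) * ‖deriv φ t‖ₑ = 0 := by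
    apply setLIntegral_eq_zero measurableSet_Ioi
    intro t ht
    have h1 : φ =ᶠ[nhds t] fun _ => (0:ℝ) := by
      filter_upwards [Ioi_mem_nhds ht] with u hu
      exact hR u (hRb.trans (le_of_lt hu))
    have h2 : deriv φ t = 0 := by
      rw [h1.deriv_eq, deriv_const]
    simp [h2]
  rw [h0, add_zero]
  exact ENNReal.ofReal_lt_top

end Vale.Agent.Lib.P137
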