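import Mathlib

namespace Vale.Agent.Lib.P137

open MeasureTheory Set Metric
open scoped ENNReal

section Polar

variable {E : Type*} [NormedAddCommGroup E] [NormedSpace ℝ E] [MeasurableSpace E]
  [Nontrivial E] (μ : Measure E) [FiniteDimensional ℝ E] [BorelSpace E] [μ.IsAddHaarMeasure]

/-- Polar coordinates for the lower Lebesgue integral of a radial function. -/
theorem lintegral_fun_norm (h : ℝ → ℝ≥0∞) (hh : Measurable h) :
    ∫⁻ x, h ‖x‖ ∂μ = (Module.finrank ℝ E * μ (ball 0 1)) *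
      ∫⁻ ρ in Ioi (0:ℝ), ENNReal.ofReal (ρ ^ (Module.finrank ℝ E - 1)) * h ρ := by
  calc ∫⁻ x, h ‖x‖ ∂μ = ∫⁻ x : ({(0)}ᶜ : Set E), h ‖x.1‖ ∂(μ.comap (↑)) := by
        rw [lintegral_subtype_comap (measurableSet_singleton _).compl fun x => h ‖x‖,
          restrict_compl_singleton]
    _ = ∫⁻ p, h p.2 ∂μ.toSphere.prod (Measure.volumeIoiPow (Module.finrank ℝ E - 1)) := by
        simpa using μ.measurePreserving_homeomorphUnitSphereProd.lintegral_comp_emb
          (Homeomorph.measurableEmbedding _) (h ∘ Subtype.val ∘ Prod.snd)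
    _ = μ.toSphere univ *
          ∫⁻ r : Ioi (0:ℝ), h r ∂(Measure.volumeIoiPow (Module.finrank ℝ E - 1)) := by
        rw [lintegral_prod _ (by fun_prop)]
        simp [mul_comm]
    _ = _ := by
        rw [Measure.volumeIoiPow, lintegral_withDensity_eq_lintegral_mul _ (by fun_prop)
          (by fun_prop), μ.toSphere_apply_univ]
        simp only [Pi.mul_apply]
        rw [lintegral_subtype_comap measurableSet_Ioi
            (fun a => ENNReal.ofReal (a ^ (Module.finrank ℝ E - 1)) * h a)]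

end Polar

section Radial

variable {E : Type*} [NormedAddCommGroup E] [InnerProductSpace ℝ E] [Nontrivial E]

/-- The gradient of a radial function has norm `|γ'(‖x‖)|` at every `x ≠ 0`
(with the convention that derivatives vanish at points of non-differentiability). -/
theorem norm_fderiv_comp_norm (γ : ℝ → ℝ) {x : E} (hx : x ≠ 0) :
    ‖fderiv ℝ (fun y : E => γ ‖y‖) x‖ = |deriv γ ‖x‖| := by
  have hn : DifferentiableAt ℝ (fun y : E => ‖y‖) x :=
    (contDiffAt_norm ℝ hx).differentiableAt one_ne_zero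
  have hx0 : ‖x‖ ≠ 0 := norm_ne_zero_iff.2 hx
  by_cases hγ : DifferentiableAt ℝ γ ‖x‖
  · have h1 : HasFDerivAt (fun y : E => γ ‖y‖)
        (deriv γ ‖x‖ • fderiv ℝ (fun y : E => ‖y‖) x) x :=
      hγ.hasDerivAt.comp_hasFDerivAt x hn.hasFDerivAt
    rw [h1.fderiv, norm_smul, norm_fderiv_norm hn, mul_one, Real.norm_eq_abs]
  · rw [deriv_zero_of_not_differentiableAt hγ, abs_zero, norm_eq_zero]
    apply fderiv_zero_of_not_differentiableAt
    intro hg
    apply hγ
    have hc : DifferentiableAt ℝ (fun t : ℝ => t • (‖x‖⁻¹ • x)) ‖x‖ := by fun_prop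
    have hcx : ‖x‖ • (‖x‖⁻¹ • x) = x := by
      rw [smul_smul, mul_inv_cancel₀ hx0, one_smul]
    have h2 : DifferentiableAt ℝ
        ((fun y : E => γ ‖y‖) ∘ (fun t : ℝ => t • (‖x‖⁻¹ • x))) ‖x‖ := by
      apply DifferentiableAt.comp
      · rwa [hcx]
      · exact hc
    refine h2.congr_of_eventuallyEq ?_
    filter_upwards [lt_mem_nhds (norm_pos_iff.2 hx)] with t ht
    simp [norm_smul, abs_of_pos ht, inv_mul_cancel₀ hx0]

variable [MeasurableSpace E] (μ : Measure E) [FiniteDimensional ℝ E] [BorelSpace E]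
  [μ.IsAddHaarMeasure]

/-- Total variation of a radial function in polar coordinates. -/
theorem lintegral_fderiv_comp_norm (γ : ℝ → ℝ) :
    ∫⁻ x : E, ‖fderiv ℝ (fun y : E => γ ‖y‖) x‖ₑ ∂μ = (Module.finrank ℝ E * μ (ball 0 1)) *
      ∫⁻ ρ in Ioi (0:ℝ), ENNReal.ofReal (ρ ^ (Module.finrank ℝ E - 1)) * ‖deriv γ ρ‖ₑ := by
  rw [← lintegral_fun_norm μ (fun ρ => ‖deriv γ ρ‖ₑ) (measurable_deriv γ).enorm]
  apply lintegral_congr_ae
  have h0 : ∀ᵐ x ∂μ, x ≠ 0 := by
    simp [ae_iff]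
  filter_upwards [h0] with x hx
  rw [← ofReal_norm, ← ofReal_norm, norm_fderiv_comp_norm γ hx,
    Real.norm_eq_abs]

end Radial

end Vale.Agent.Lib.P137
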