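import Mathlib
import Vale.Agent.Lib.P137.Defs
import Vale.Agent.Lib.P137.Polar
import Vale.Agent.Lib.P137.OneDim
import Vale.Agent.Lib.P137.Maximal
import Vale.Agent.Lib.P137.Hardy

namespace Vale.Agent.Lib.P137

open MeasureTheory Set Metric
open scoped ENNReal NNReal

variable {E : Type*} [NormedAddCommGroup E] [InnerProductSpace ℝ E] [FiniteDimensional ℝ E]
  [MeasurableSpace E] [BorelSpace E]

theorem nonneg_of_antitoneOn {φ : ℝ → ℝ} (hanti : AntitoneOn φ (Ici 0)) {R : ℝ}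
    (hR : ∀ t, R ≤ t → φ t = 0) : ∀ t, 0 ≤ t → 0 ≤ φ t := by
  intro t ht
  have h1 := hanti (mem_Ici.2 ht) (mem_Ici.2 (le_trans ht (le_max_left t R)))
    (le_max_left t R)
  rw [hR _ (le_max_right t R)] at h1
  exact h1

/-- Polar formula for the integral of a radial function over a ball centred at the origin. -/
theorem ofReal_setIntegral_ball [Nontrivial E] {φ : ℝ → ℝ} (hφc : Continuous φ)
    (hpos : ∀ t, 0 ≤ t → 0 ≤ φ t) (s : ℝ) :
    ENNReal.ofReal (∫ y in ball (0:E) s, φ ‖y‖)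
      = (Module.finrank ℝ E * volume (ball (0:E) 1)) *
        ∫⁻ t in Ioo (0:ℝ) s, ENNReal.ofReal (t ^ (Module.finrank ℝ E - 1) * φ t) := by
  have hc : Continuous fun y : E => φ ‖y‖ := hφc.comp continuous_norm
  rw [ofReal_integral_eq_lintegral_ofReal (integrableOn_ball hc 0 s)
    (Filter.Eventually.of_forall fun y => hpos _ (norm_nonneg y)),
    ← lintegral_indicator measurableSet_ball]
  have h1 : ∀ y : E, (ball (0:E) s).indicator (fun y => ENNReal.ofReal (φ ‖y‖)) y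
      = (Iio s).indicator (fun t => ENNReal.ofReal (φ t)) ‖y‖ := by
    intro y
    by_cases hy : ‖y‖ < s
    · rw [indicator_of_mem (mem_ball_zero_iff.2 hy), indicator_of_mem (mem_Iio.2 hy)]
    · have hy1 : y ∉ ball (0:E) s := fun h => hy (mem_ball_zero_iff.1 h)
      have hy2 : ‖y‖ ∉ Iio s := hy
      rw [indicator_of_notMem hy1, indicator_of_notMem hy2]
  simp only [h1]
  rw [lintegral_fun_norm volume _ ((hφc.measurable.ennreal_ofReal).indicator measurableSet_Iio)]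
  congr 1
  have h2 : ∀ ρ ∈ Ioi (0:ℝ), ENNReal.ofReal (ρ ^ (Module.finrank ℝ E - 1)) *
        (Iio s).indicator (fun t => ENNReal.ofReal (φ t)) ρ
      = (Iio s).indicator (fun t => ENNReal.ofReal (t ^ (Module.finrank ℝ E - 1) * φ t)) ρ := by
    intro ρ hρ
    by_cases h : ρ < s
    · rw [indicator_of_mem (mem_Iio.2 h), indicator_of_mem (mem_Iio.2 h),
        ENNReal.ofReal_mul (pow_nonneg (le_of_lt hρ) _)]
    · have h' : ρ ∉ Iio s := h
      rw [indicator_of_notMem h', indicator_of_notMem h', mul_zero]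
  rw [setLIntegral_congr_fun measurableSet_Ioi h2, lintegral_indicator measurableSet_Iio,
    Measure.restrict_restrict measurableSet_Iio]
  have hset : Iio s ∩ Ioi (0:ℝ) = Ioo 0 s := by
    ext t
    simp only [mem_inter_iff, mem_Iio, mem_Ioi, mem_Ioo]
    exact and_comm
  rw [hset]

/-- Main estimate, for a Euclidean space `E` of dimension `m + 2`. -/
theorem gradient_bound (m : ℕ) (hdim : Module.finrank ℝ E = m + 2) {φ : ℝ → ℝ} {K : ℝ≥0}
    (hφ : LipschitzWith K φ) (hanti : AntitoneOn φ (Ici 0)) {R : ℝ}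
    (hR : ∀ t, R ≤ t → φ t = 0) :
    LipschitzWith K (centeredMaximal (fun y : E => φ ‖y‖)) ∧
    ∫⁻ x : E, ‖fderiv ℝ (fun y : E => φ ‖y‖) x‖ₑ < ∞ ∧
    ∫⁻ x : E, ‖fderiv ℝ (centeredMaximal (fun y : E => φ ‖y‖)) x‖ₑ ≤
      (((m + 2) * 2 ^ (m + 1) * 3 ^ (m + 2) : ℕ) : ℝ≥0∞) *
        ∫⁻ x : E, ‖fderiv ℝ (fun y : E => φ ‖y‖) x‖ₑ := by
  have : Nontrivial E := Module.nontrivial_of_finrank_pos (R := ℝ) (by omega)
  have hpos := nonneg_of_antitoneOn hanti hR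
  have hφc := hφ.continuous
  have hfL : LipschitzWith K (fun y : E => φ ‖y‖) := by
    have := hφ.comp (lipschitzWith_one_norm (E := E))
    rw [mul_one] at this
    exact this
  have hC : ∀ y : E, |φ ‖y‖| ≤ φ 0 := fun y => by
    rw [abs_radial hpos]; exact radial_le hanti y
  have hML : LipschitzWith K (centeredMaximal (fun y : E => φ ‖y‖)) :=
    lipschitz_centeredMaximal hfL hC
  refine ⟨hML, ?_, ?_⟩
  · rw [lintegral_fderiv_comp_norm volume φ]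
    exact ENNReal.mul_lt_top (ENNReal.mul_lt_top (ENNReal.natCast_lt_top _) measure_ball_lt_top)
      (variation_lt_top hφ hanti hR _)
  obtain ⟨e, he⟩ : ∃ e : E, ‖e‖ = 1 := exists_norm_eq E zero_le_one
  obtain ⟨Φ, hΦdef⟩ : ∃ Φ : ℝ → ℝ,
      ∀ s, Φ s = centeredMaximal (fun y : E => φ ‖y‖) (s • e) := ⟨_, fun _ => rfl⟩
  have hnorm_e : ∀ s : ℝ, ‖s • e‖ = |s| := fun s => by
    rw [norm_smul, he, mul_one, Real.norm_eq_abs]
  have hΦ : ∀ x : E, centeredMaximal (fun y : E => φ ‖y‖) x = Φ ‖x‖ := by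
    intro x
    rw [hΦdef]
    have h1 : ‖‖x‖ • e‖ = ‖x‖ := by rw [hnorm_e, abs_of_nonneg (norm_nonneg x)]
    exact le_antisymm (centeredMaximal_anti hφc hanti hpos h1.le)
      (centeredMaximal_anti hφc hanti hpos h1.ge)
  have hΦL : LipschitzWith K Φ := by
    apply LipschitzWith.of_dist_le_mul
    intro s t
    rw [hΦdef, hΦdef]
    have h1 := hML.dist_le_mul (s • e) (t • e)
    rw [dist_eq_norm (s • e), ← sub_smul, hnorm_e, ← Real.dist_eq] at h1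
    exact h1
  have hΦanti : AntitoneOn Φ (Ici 0) := by
    intro s hs t ht hst
    rw [hΦdef, hΦdef]
    apply centeredMaximal_anti hφc hanti hpos
    rw [hnorm_e, hnorm_e, abs_of_nonneg (mem_Ici.1 hs), abs_of_nonneg (mem_Ici.1 ht)]
    exact hst
  have hΦpos : ∀ t, 0 ≤ t → 0 ≤ Φ t := fun t _ => by
    rw [hΦdef]; exact centeredMaximal_nonneg _ _
  have hMeq : centeredMaximal (fun y : E => φ ‖y‖) = fun x : E => Φ ‖x‖ := funext hΦ
  rw [hMeq, lintegral_fderiv_comp_norm volume Φ, lintegral_fderiv_comp_norm volume φ, hdim]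
  have hn1 : m + 2 - 1 = m + 1 := by omega
  rw [hn1]
  have hωpos : 0 < (volume : Measure E).real (ball (0:E) 1) := volReal_ball_pos 0 one_pos
  have hω : ENNReal.ofReal (((volume : Measure E).real (ball (0:E) 1))⁻¹) *
      volume (ball (0:E) 1) = 1 := by
    have h1 : volume (ball (0:E) 1)
        = ENNReal.ofReal ((volume : Measure E).real (ball (0:E) 1)) := by
      rw [measureReal_def, ENNReal.ofReal_toReal measure_ball_lt_top.ne]
    rw [h1, ← ENNReal.ofReal_mul (inv_nonneg.2 hωpos.le), inv_mul_cancel₀ hωpos.ne',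
      ENNReal.ofReal_one]
  -- pointwise bound in polar form
  have hPW : ∀ ρ ∈ Ioi (0:ℝ), ENNReal.ofReal (ρ ^ m * Φ ρ) ≤
      (ENNReal.ofReal (3 ^ (m + 2) * 2 ^ (m + 2)) * ((m + 2 : ℕ) : ℝ≥0∞)) *
        (ENNReal.ofReal ((ρ ^ 2)⁻¹) *
          ∫⁻ t in Ioo (0:ℝ) (ρ / 2), ENNReal.ofReal (t ^ (m + 1) * φ t)) := by
    intro ρ hρ
    have hρ0 : (0:ℝ) < ρ := hρ
    have hx : ρ • e ≠ 0 := by
      rw [← norm_pos_iff, hnorm_e, abs_of_pos hρ0]
      exact hρ0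
    have hle := centeredMaximal_le hφc hanti hpos hx
    rw [hnorm_e, abs_of_pos hρ0, hdim, ← hΦdef] at hle
    have hV : (volume : Measure E).real (ball (0:E) (ρ / 2))
        = (ρ / 2) ^ (m + 2) * (volume : Measure E).real (ball (0:E) 1) := by
      rw [measureReal_def, Measure.addHaar_ball_of_pos volume (0:E) (half_pos hρ0),
        ENNReal.toReal_mul, ENNReal.toReal_ofReal (by positivity), hdim, measureReal_def]
    rw [hV] at hle
    have hI : 0 ≤ ∫ y in ball (0:E) (ρ / 2), φ ‖y‖ :=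
      setIntegral_nonneg measurableSet_ball (fun y _ => hpos _ (norm_nonneg y))
    have hreal : ρ ^ m * Φ ρ ≤ (3 ^ (m + 2) * 2 ^ (m + 2) * (ρ ^ 2)⁻¹ *
        ((volume : Measure E).real (ball (0:E) 1))⁻¹) * ∫ y in ball (0:E) (ρ / 2), φ ‖y‖ := by
      have h1 : ρ ^ m * Φ ρ ≤ ρ ^ m * (3 ^ (m + 2) * ((∫ y in ball (0:E) (ρ / 2), φ ‖y‖) /
          ((ρ / 2) ^ (m + 2) * (volume : Measure E).real (ball (0:E) 1)))) :=
        mul_le_mul_of_nonneg_left hle (pow_nonneg hρ0.le m)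
      refine h1.trans (le_of_eq ?_)
      have hρne : ρ ≠ 0 := hρ0.ne'
      have hωne := hωpos.ne'
      generalize (∫ y in ball (0:E) (ρ / 2), φ ‖y‖) = I
      generalize (volume : Measure E).real (ball (0:E) 1) = ω at hωne
      rw [div_pow]
      field_simp
      ring
    have h2 := ofReal_setIntegral_ball (E := E) hφc hpos (ρ / 2)
    rw [hdim, hn1] at h2
    calc ENNReal.ofReal (ρ ^ m * Φ ρ)
        ≤ ENNReal.ofReal ((3 ^ (m + 2) * 2 ^ (m + 2) * (ρ ^ 2)⁻¹ *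
          ((volume : Measure E).real (ball (0:E) 1))⁻¹) *
            ∫ y in ball (0:E) (ρ / 2), φ ‖y‖) := ENNReal.ofReal_le_ofReal hreal
      _ = ENNReal.ofReal (3 ^ (m + 2) * 2 ^ (m + 2)) * ENNReal.ofReal ((ρ ^ 2)⁻¹) *
            ENNReal.ofReal (((volume : Measure E).real (ball (0:E) 1))⁻¹) *
            (((m + 2 : ℕ) : ℝ≥0∞) * volume (ball (0:E) 1) *
              ∫⁻ t in Ioo (0:ℝ) (ρ / 2), ENNReal.ofReal (t ^ (m + 1) * φ t)) := by
          rw [ENNReal.ofReal_mul (by positivity), h2,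
            ENNReal.ofReal_mul (by positivity), ENNReal.ofReal_mul (by positivity)]
      _ = (ENNReal.ofReal (3 ^ (m + 2) * 2 ^ (m + 2)) * ((m + 2 : ℕ) : ℝ≥0∞)) *
            (ENNReal.ofReal ((ρ ^ 2)⁻¹) *
              ∫⁻ t in Ioo (0:ℝ) (ρ / 2), ENNReal.ofReal (t ^ (m + 1) * φ t)) *
            (ENNReal.ofReal (((volume : Measure E).real (ball (0:E) 1))⁻¹) *
              volume (ball (0:E) 1)) := by ring
      _ = _ := by rw [hω, mul_one]
  -- the one-dimensional chain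
  have hg : Measurable fun t : ℝ => ENNReal.ofReal (t ^ (m + 1) * φ t) := by
    have := hφc.measurable
    fun_prop
  have hC1 : ENNReal.ofReal (3 ^ (m + 2) * 2 ^ (m + 2)) * ((m + 2 : ℕ) : ℝ≥0∞) ≠ ∞ :=
    ENNReal.mul_ne_top ENNReal.ofReal_ne_top (ENNReal.natCast_ne_top _)
  have hKI : ∫⁻ ρ in Ioi (0:ℝ), ENNReal.ofReal (ρ ^ (m + 1)) * ‖deriv Φ ρ‖ₑ ≤
      (((m + 2) * 2 ^ (m + 1) * 3 ^ (m + 2) : ℕ) : ℝ≥0∞) *
        ∫⁻ ρ in Ioi (0:ℝ), ENNReal.ofReal (ρ ^ (m + 1)) * ‖deriv φ ρ‖ₑ := by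
    have s1 := variation_le hΦL hΦanti hΦpos (n := m + 1) (by omega)
    have s4 := le_variation hφ hanti hR (n := m + 1) (by omega)
    simp only [Nat.add_sub_cancel] at s1 s4
    have s2 : ∫⁻ ρ in Ioi (0:ℝ), ENNReal.ofReal (ρ ^ m * Φ ρ) ≤
        (ENNReal.ofReal (3 ^ (m + 2) * 2 ^ (m + 2)) * ((m + 2 : ℕ) : ℝ≥0∞)) *
          (ENNReal.ofReal (2⁻¹) * ∫⁻ t in Ioi (0:ℝ), ENNReal.ofReal (t ^ m * φ t)) := by
      calc ∫⁻ ρ in Ioi (0:ℝ), ENNReal.ofReal (ρ ^ m * Φ ρ)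
          ≤ ∫⁻ ρ in Ioi (0:ℝ), (ENNReal.ofReal (3 ^ (m + 2) * 2 ^ (m + 2)) *
              ((m + 2 : ℕ) : ℝ≥0∞)) * (ENNReal.ofReal ((ρ ^ 2)⁻¹) *
                ∫⁻ t in Ioo (0:ℝ) (ρ / 2), ENNReal.ofReal (t ^ (m + 1) * φ t)) :=
            setLIntegral_mono' measurableSet_Ioi hPW
        _ = (ENNReal.ofReal (3 ^ (m + 2) * 2 ^ (m + 2)) * ((m + 2 : ℕ) : ℝ≥0∞)) *
              ∫⁻ ρ in Ioi (0:ℝ), ENNReal.ofReal ((ρ ^ 2)⁻¹) *
                ∫⁻ t in Ioo (0:ℝ) (ρ / 2), ENNReal.ofReal (t ^ (m + 1) * φ t) :=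
            lintegral_const_mul' _ _ hC1
        _ = (ENNReal.ofReal (3 ^ (m + 2) * 2 ^ (m + 2)) * ((m + 2 : ℕ) : ℝ≥0∞)) *
              ∫⁻ t in Ioi (0:ℝ), ENNReal.ofReal (t ^ (m + 1) * φ t) *
                ENNReal.ofReal ((2 * t)⁻¹) := by
            rw [hardy_swap _ hg]
        _ = _ := by
            congr 1
            rw [← lintegral_const_mul' _ _ ENNReal.ofReal_ne_top]
            apply setLIntegral_congr_fun measurableSet_Ioi
            intro t ht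
            have ht0 : (0:ℝ) < t := ht
            show ENNReal.ofReal (t ^ (m + 1) * φ t) * ENNReal.ofReal ((2 * t)⁻¹)
              = ENNReal.ofReal (2⁻¹) * ENNReal.ofReal (t ^ m * φ t)
            rw [← ENNReal.ofReal_mul (mul_nonneg (pow_nonneg ht0.le _) (hpos t ht0.le)),
              ← ENNReal.ofReal_mul (by norm_num)]
            congr 1
            have htne : t ≠ 0 := ht0.ne'
            field_simp
            ring
    have hconst : (ENNReal.ofReal (3 ^ (m + 2) * 2 ^ (m + 2)) * ((m + 2 : ℕ) : ℝ≥0∞)) *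
        ENNReal.ofReal (2⁻¹) = (((m + 2) * 2 ^ (m + 1) * 3 ^ (m + 2) : ℕ) : ℝ≥0∞) := by
      rw [← ENNReal.ofReal_natCast (m + 2),
        ← ENNReal.ofReal_natCast ((m + 2) * 2 ^ (m + 1) * 3 ^ (m + 2)),
        ← ENNReal.ofReal_mul (by positivity), ← ENNReal.ofReal_mul (by positivity)]
      congr 1
      push_cast
      ring
    calc ∫⁻ ρ in Ioi (0:ℝ), ENNReal.ofReal (ρ ^ (m + 1)) * ‖deriv Φ ρ‖ₑ
        ≤ ((m + 1 : ℕ) : ℝ≥0∞) * ∫⁻ ρ in Ioi (0:ℝ), ENNReal.ofReal (ρ ^ m * Φ ρ) := s1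
      _ ≤ ((m + 1 : ℕ) : ℝ≥0∞) * ((ENNReal.ofReal (3 ^ (m + 2) * 2 ^ (m + 2)) *
            ((m + 2 : ℕ) : ℝ≥0∞)) *
              (ENNReal.ofReal (2⁻¹) * ∫⁻ t in Ioi (0:ℝ), ENNReal.ofReal (t ^ m * φ t))) := by
          gcongr
      _ = ((ENNReal.ofReal (3 ^ (m + 2) * 2 ^ (m + 2)) * ((m + 2 : ℕ) : ℝ≥0∞)) *
            ENNReal.ofReal (2⁻¹)) * (((m + 1 : ℕ) : ℝ≥0∞) *
              ∫⁻ t in Ioi (0:ℝ), ENNReal.ofReal (t ^ m * φ t)) := by ring
      _ ≤ ((ENNReal.ofReal (3 ^ (m + 2) * 2 ^ (m + 2)) * ((m + 2 : ℕ) : ℝ≥0∞)) *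
            ENNReal.ofReal (2⁻¹)) *
              ∫⁻ ρ in Ioi (0:ℝ), ENNReal.ofReal (ρ ^ (m + 1)) * ‖deriv φ ρ‖ₑ := by
          gcongr
      _ = _ := by rw [hconst]
  calc ((m + 2 : ℕ) : ℝ≥0∞) * volume (ball (0:E) 1) *
        ∫⁻ ρ in Ioi (0:ℝ), ENNReal.ofReal (ρ ^ (m + 1)) * ‖deriv Φ ρ‖ₑ
      ≤ ((m + 2 : ℕ) : ℝ≥0∞) * volume (ball (0:E) 1) *
          ((((m + 2) * 2 ^ (m + 1) * 3 ^ (m + 2) : ℕ) : ℝ≥0∞) *
            ∫⁻ ρ in Ioi (0:ℝ), ENNReal.ofReal (ρ ^ (m + 1)) * ‖deriv φ ρ‖ₑ) := by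
        gcongr
    _ = _ := by ring

end Vale.Agent.Lib.P137
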