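import Mathlib
import Vale.Agent.Lib.P137.Hyper
import Vale.Agent.Lib.P137.Maximal

namespace Vale.Agent.Lib.P137

open MeasureTheory Set Metric
open scoped ENNReal NNReal

variable {ι : Type*} [Fintype ι] [DecidableEq ι]

omit [DecidableEq ι] in
/-- an average over a ball is bounded by any bound of the function on that ball -/
theorem pointwise_setAverage_le {g : EuclideanSpace ℝ ι → ℝ} (hg : Continuous g) {C : ℝ}
    (x : EuclideanSpace ℝ ι) {r : ℝ} (hr : 0 < r) (hC : ∀ y ∈ ball x r, g y ≤ C) :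
    ⨍ y in ball x r, g y ≤ C := by
  rw [setAverage_ball]
  have hV := volReal_ball_pos (0 : EuclideanSpace ℝ ι) hr
  have h1 : ∫ y in ball x r, g y ≤ ∫ _y in ball x r, C :=
    setIntegral_mono_on (integrableOn_ball hg x r) (integrableOn_const (by finiteness))
      measurableSet_ball (fun y hy => hC y hy)
  rw [setIntegral_const, smul_eq_mul, Measure.addHaar_real_ball_center] at h1
  rw [inv_mul_le_iff₀ hV]
  linarith

omit [DecidableEq ι] in
/-- passing from all ball averages to the centered maximal function -/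
theorem pointwise_sup_le {f : EuclideanSpace ℝ ι → ℝ} (x : EuclideanSpace ℝ ι) (R : ℝ≥0∞)
    (key : ∀ r : ℝ, 0 < r → ENNReal.ofReal (⨍ y in ball x r, |f y|) ≤ R) :
    ENNReal.ofReal (centeredMaximal f x) ≤ R := by
  by_cases htop : R = ⊤
  · rw [htop]
    exact le_top
  · rw [ENNReal.ofReal_le_iff_le_toReal htop]
    unfold centeredMaximal
    have : Nonempty (Ioi (0:ℝ)) := ⟨⟨1, mem_Ioi.2 one_pos⟩⟩
    apply ciSup_le
    intro r
    exact (ENNReal.ofReal_le_iff_le_toReal htop).1 (key r r.2)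

omit [DecidableEq ι] in
/-- the bound for one ball average -/
theorem pointwise_key {f : EuclideanSpace ℝ ι → ℝ} (hf : Continuous f)
    (hBD : ∀ x y : EuclideanSpace ℝ ι, (∀ i, |x i| ≤ |y i|) → f y ≤ f x)
    (h0 : ∀ x, 0 ≤ f x) (i : ι) (x : EuclideanSpace ℝ ι) (hx : x i = 0) (r : ℝ) (hr : 0 < r) :
    ENNReal.ofReal (⨍ y in ball x r, |f y|) ≤ ENNReal.ofReal (f ((2:ℝ)⁻¹ • x)) +
      2 ^ (Fintype.card ι + 1) * ∫⁻ ρ in {ρ : ℝ | ∃ k, k ≠ i ∧ |x k| / 2 < ρ},
        (∫⁻ z in ball x ρ, ENNReal.ofReal (f z)) / volume (ball x ρ) / ENNReal.ofReal ρ := by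
  have habs : ∀ y, |f y| = f y := fun y => abs_of_nonneg (h0 y)
  by_cases hcase : ∀ k, k ≠ i → r ≤ |x k| / 2
  · -- the ball stays in the region where every coordinate is at least half that of `x`
    have h1 : ⨍ y in ball x r, |f y| ≤ f ((2:ℝ)⁻¹ • x) := by
      apply pointwise_setAverage_le hf.abs x hr
      intro z hz
      rw [habs]
      apply hBD
      intro k
      by_cases hk : k = i
      · subst hk
        have h5 : ((2:ℝ)⁻¹ • x) k = 0 := by
          rw [PiLp.smul_apply, hx, smul_zero]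
        rw [h5, abs_zero]
        exact abs_nonneg _
      · have h2 : |(z - x) k| ≤ ‖z - x‖ := by
          have := PiLp.norm_apply_le (z - x) k
          rwa [Real.norm_eq_abs] at this
        have h3 : ‖z - x‖ < r := by rwa [mem_ball, dist_eq_norm] at hz
        have h4 := hcase k hk
        have h5 : ((2:ℝ)⁻¹ • x) k = (2:ℝ)⁻¹ * x k := by
          rw [PiLp.smul_apply, smul_eq_mul]
        have h6 : (z - x) k = z k - x k := rfl
        rw [h5, abs_mul, abs_of_pos (by norm_num : (0:ℝ) < 2⁻¹)]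
        rw [h6] at h2
        have h7 : |x k| - |z k| ≤ |z k - x k| := by
          have := abs_sub_abs_le_abs_sub (x k) (z k)
          rwa [abs_sub_comm] at this
        linarith
    exact (ENNReal.ofReal_le_ofReal h1).trans le_self_add
  · -- the radius is comparable to the radii in the integral
    push Not at hcase
    obtain ⟨k, hki, hkr⟩ := hcase
    have hsub : Icc r (2 * r) ⊆ {ρ : ℝ | ∃ k, k ≠ i ∧ |x k| / 2 < ρ} := by
      intro ρ hρ
      exact ⟨k, hki, lt_of_lt_of_le hkr hρ.1⟩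
    obtain ⟨I, hI⟩ : ∃ I : ℝ≥0∞, I = ∫⁻ z in ball x r, ENNReal.ofReal (f z) := ⟨_, rfl⟩
    obtain ⟨V, hV⟩ : ∃ V : ℝ≥0∞, V = volume (ball x r) := ⟨_, rfl⟩
    have hVtop : V ≠ ⊤ := by
      rw [hV]
      exact measure_ball_lt_top.ne
    obtain ⟨c, hc⟩ : ∃ c : ℝ≥0∞, c = I / (2 ^ (Fintype.card ι) * V) / ENNReal.ofReal (2 * r) :=
      ⟨_, rfl⟩
    have hgc : ∀ ρ ∈ Icc r (2 * r),
        c ≤ (∫⁻ z in ball x ρ, ENNReal.ofReal (f z)) / volume (ball x ρ) / ENNReal.ofReal ρ := by
      intro ρ hρ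
      have e1 : I ≤ ∫⁻ z in ball x ρ, ENNReal.ofReal (f z) := by
        rw [hI]
        exact lintegral_mono_set (ball_subset_ball hρ.1)
      have e2 : volume (ball x ρ) ≤ 2 ^ (Fintype.card ι) * V := by
        have e3 : volume (ball x (2 * r)) = 2 ^ (Fintype.card ι) * V := by
          rw [Measure.addHaar_ball_mul_of_pos volume x (by norm_num : (0:ℝ) < 2) r,
            finrank_euclideanSpace, ENNReal.ofReal_pow (by norm_num), ENNReal.ofReal_ofNat, hV,
            Measure.addHaar_ball_center volume x r]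
        rw [← e3]
        exact measure_mono (ball_subset_ball hρ.2)
      have e4 : ENNReal.ofReal ρ ≤ ENNReal.ofReal (2 * r) := ENNReal.ofReal_le_ofReal hρ.2
      rw [hc]
      exact ENNReal.div_le_div (ENNReal.div_le_div e1 e2) e4
    have hint : c * ENNReal.ofReal r ≤ ∫⁻ ρ in {ρ : ℝ | ∃ k, k ≠ i ∧ |x k| / 2 < ρ},
        (∫⁻ z in ball x ρ, ENNReal.ofReal (f z)) / volume (ball x ρ) / ENNReal.ofReal ρ := by
      calc c * ENNReal.ofReal r = ∫⁻ _ρ in Icc r (2 * r), c := by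
            rw [setLIntegral_const, Real.volume_Icc]
            congr 2
            ring
        _ ≤ ∫⁻ ρ in Icc r (2 * r),
            (∫⁻ z in ball x ρ, ENNReal.ofReal (f z)) / volume (ball x ρ) / ENNReal.ofReal ρ :=
            setLIntegral_mono' measurableSet_Icc hgc
        _ ≤ _ := lintegral_mono_set hsub
    have hfin : ENNReal.ofReal (⨍ y in ball x r, |f y|)
        ≤ 2 ^ (Fintype.card ι + 1) * (c * ENNReal.ofReal r) := by
      obtain ⟨J, hJ⟩ : ∃ J : ℝ, J = ∫ y in ball x r, |f y| := ⟨_, rfl⟩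
      obtain ⟨Vr, hVr⟩ : ∃ Vr : ℝ, Vr = (volume : Measure (EuclideanSpace ℝ ι)).real (ball x r) :=
        ⟨_, rfl⟩
      have hVrpos : 0 < Vr := by
        rw [hVr]
        exact volReal_ball_pos x hr
      have hJ0 : 0 ≤ J := by
        rw [hJ]
        exact integral_nonneg (fun y => abs_nonneg _)
      have hIJ : I = ENNReal.ofReal J := by
        rw [hJ, hI, ofReal_integral_eq_lintegral_ofReal (integrableOn_ball hf.abs x r)
          (Filter.Eventually.of_forall (fun y => abs_nonneg _))]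
        simp only [habs]
      have hVV : V = ENNReal.ofReal Vr := by
        rw [hVr, measureReal_def, ← hV, ENNReal.ofReal_toReal hVtop]
      have havg : ⨍ y in ball x r, |f y| = Vr⁻¹ * J := by
        rw [setAverage_eq, smul_eq_mul, hVr, hJ]
      have h2 : ∀ m : ℕ, (2:ℝ≥0∞) ^ m = ENNReal.ofReal (2 ^ m) := fun m => by
        rw [ENNReal.ofReal_pow (by norm_num : (0:ℝ) ≤ 2), ENNReal.ofReal_ofNat]
      have hd0 : (0:ℝ) < 2 ^ (Fintype.card ι) * Vr := by positivity
      have hr2 : (0:ℝ) < 2 * r := by positivity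
      rw [havg, hc, hIJ, hVV, h2 (Fintype.card ι + 1), h2 (Fintype.card ι),
        ← ENNReal.ofReal_mul (by positivity : (0:ℝ) ≤ 2 ^ (Fintype.card ι)),
        ← ENNReal.ofReal_div_of_pos hd0, ← ENNReal.ofReal_div_of_pos hr2,
        ← ENNReal.ofReal_mul (by positivity : (0:ℝ) ≤ J / (2 ^ (Fintype.card ι) * Vr) / (2 * r)),
        ← ENNReal.ofReal_mul (by positivity : (0:ℝ) ≤ 2 ^ (Fintype.card ι + 1))]
      apply ENNReal.ofReal_le_ofReal
      apply le_of_eq
      field_simp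
      ring
    calc ENNReal.ofReal (⨍ y in ball x r, |f y|)
        ≤ 2 ^ (Fintype.card ι + 1) * (c * ENNReal.ofReal r) := hfin
      _ ≤ 2 ^ (Fintype.card ι + 1) * ∫⁻ ρ in {ρ : ℝ | ∃ k, k ≠ i ∧ |x k| / 2 < ρ},
          (∫⁻ z in ball x ρ, ENNReal.ofReal (f z)) / volume (ball x ρ) / ENNReal.ofReal ρ :=
          mul_le_mul_right hint _
      _ ≤ _ := le_add_self

theorem centeredMaximal_le_on_hyperplane {f : EuclideanSpace ℝ ι → ℝ} (hf : Continuous f)
    (hBD : ∀ x y : EuclideanSpace ℝ ι, (∀ i, |x i| ≤ |y i|) → f y ≤ f x)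
    (h0 : ∀ x, 0 ≤ f x) (i : ι) (x : EuclideanSpace ℝ ι) (hx : x i = 0) :
    ENNReal.ofReal (centeredMaximal f x) ≤ ENNReal.ofReal (f ((2:ℝ)⁻¹ • x)) +
      2 ^ (Fintype.card ι + 1) * ∫⁻ ρ in {ρ : ℝ | ∃ k, k ≠ i ∧ |x k| / 2 < ρ},
        (∫⁻ z in ball x ρ, ENNReal.ofReal (f z)) / volume (ball x ρ) / ENNReal.ofReal ρ :=
  pointwise_sup_le x _ (fun r hr => pointwise_key hf hBD h0 i x hx r hr)

end Vale.Agent.Lib.P137
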