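import Mathlib
import Vale.Agent.Lib.P137.Hyper
namespace Vale.Agent.Lib.P137
open MeasureTheory Set Metric
open scoped ENNReal NNReal
variable {ι : Type*} [Fintype ι] [DecidableEq ι]

theorem hyperInt_comp_smul (i : ι) {G : EuclideanSpace ℝ ι → ℝ≥0∞} (hG : Measurable G) :
    hyperInt i (fun x => G ((2:ℝ)⁻¹ • x)) = 2 ^ (Fintype.card ι - 1) * hyperInt i G := by
  classical
  set s : Finset ι := Finset.univ.erase i with hs
  have hcard : Module.finrank ℝ (↥s → ℝ) = Fintype.card ι - 1 := by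
    rw [Module.finrank_fintype_fun_eq_card, Fintype.card_coe, hs,
      Finset.card_erase_of_mem (Finset.mem_univ i), Finset.card_univ]
  set H : (↥s → ℝ) → ℝ≥0∞ := fun y =>
    G (WithLp.toLp 2 (Function.updateFinset (0 : ι → ℝ) s y)) with hH
  have hHm : Measurable H := by
    refine hG.comp ?_
    refine (WithLp.measurable_toLp 2 _).comp ?_
    exact measurable_updateFinset
  have h1 : hyperInt i G = ∫⁻ y : ↥s → ℝ, H y ∂(Measure.pi fun _ : ↥s => (volume : Measure ℝ)) := by
    unfold hyperInt lmarginal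
    rfl
  have h2 : hyperInt i (fun x => G ((2:ℝ)⁻¹ • x)) =
      ∫⁻ y : ↥s → ℝ, H ((2:ℝ)⁻¹ • y) ∂(Measure.pi fun _ : ↥s => (volume : Measure ℝ)) := by
    unfold hyperInt lmarginal
    refine lintegral_congr fun y => ?_
    simp only [hH]
    congr 1
    rw [← WithLp.toLp_smul]
    congr 1
    ext k
    simp only [Pi.smul_apply, smul_eq_mul, Function.updateFinset_def]
    by_cases hk : k ∈ s
    · rw [dif_pos hk, dif_pos hk]
    · rw [dif_neg hk, dif_neg hk]
      simp
  rw [h1, h2]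
  have hvol : (Measure.pi fun _ : ↥s => (volume : Measure ℝ)) = (volume : Measure (↥s → ℝ)) := rfl
  rw [hvol]
  have h3 : ∫⁻ y : ↥s → ℝ, H ((2:ℝ)⁻¹ • y) =
      ∫⁻ y, H y ∂(Measure.map (fun y : ↥s → ℝ => (2:ℝ)⁻¹ • y) volume) := by
    rw [lintegral_map hHm (measurable_const_smul _)]
  rw [h3, Measure.map_addHaar_smul volume (by norm_num : (2:ℝ)⁻¹ ≠ 0), lintegral_smul_measure, hcard]
  congr 1
  rw [inv_pow, inv_inv, abs_of_pos (by positivity)]
  rw [ENNReal.ofReal_pow (by norm_num)]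
  norm_num

end Vale.Agent.Lib.P137
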