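import Mathlib
import Vale.Agent.Lib.P137.Hyper
namespace Vale.Agent.Lib.P137
open MeasureTheory Set Metric
open scoped ENNReal NNReal
variable {ι : Type*} [Fintype ι] [DecidableEq ι]

omit [Fintype ι] in
theorem sliceGrad_curve (x : EuclideanSpace ℝ ι) (i : ι) (s : ℝ) :
    WithLp.toLp 2 (Function.update (WithLp.ofLp x) i s) =
      x + (s - x i) • EuclideanSpace.single i (1:ℝ) := by
  ext k
  by_cases hk : k = i
  · subst hk
    simp
  · simp [hk]

theorem sliceGrad_hasDerivAt {g : EuclideanSpace ℝ ι → ℝ} {x : EuclideanSpace ℝ ι}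
    (hg : DifferentiableAt ℝ g x) (i : ι) :
    HasDerivAt (slice g i x) (fderiv ℝ g x (EuclideanSpace.single i 1)) (x i) := by
  have hc : HasDerivAt (fun s : ℝ => x + (s - x i) • EuclideanSpace.single i (1:ℝ))
      (EuclideanSpace.single i (1:ℝ)) (x i) := by
    have h1 : HasDerivAt (fun s : ℝ => s - x i) 1 (x i) := (hasDerivAt_id (x i)).sub_const (x i)
    have h2 := h1.smul_const (EuclideanSpace.single i (1:ℝ))
    have h3 := h2.const_add x
    simpa using h3
  have hx : x + (x i - x i) • EuclideanSpace.single i (1:ℝ) = x := by simp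
  have hg' : HasFDerivAt g (fderiv ℝ g x)
      (x + (x i - x i) • EuclideanSpace.single i (1:ℝ)) := by
    rw [hx]
    exact hg.hasFDerivAt
  have h := hg'.comp_hasDerivAt (x i) hc
  have heq : slice g i x = g ∘ fun s : ℝ => x + (s - x i) • EuclideanSpace.single i (1:ℝ) := by
    funext s
    simp only [slice, Function.comp_apply, sliceGrad_curve]
  rw [heq]
  exact h

theorem sliceGrad_apply_eq_sum (L : EuclideanSpace ℝ ι →L[ℝ] ℝ) (v : EuclideanSpace ℝ ι) :
    L v = ∑ i, v i * L (EuclideanSpace.single i 1) := by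
  have hv : v = ∑ i, v i • EuclideanSpace.single i (1:ℝ) := by
    ext k
    simp [Finset.sum_apply, Pi.single_apply]
  conv_lhs => rw [hv]
  rw [map_sum]
  simp

theorem enorm_fderiv_le_sum (g : EuclideanSpace ℝ ι → ℝ) (x : EuclideanSpace ℝ ι) :
    ‖fderiv ℝ g x‖ₑ ≤ ∑ i, ‖deriv (slice g i x) (x i)‖ₑ := by
  by_cases hg : DifferentiableAt ℝ g x
  · set L := fderiv ℝ g x with hL
    have hd : ∀ i, deriv (slice g i x) (x i) = L (EuclideanSpace.single i 1) := fun i =>
      (sliceGrad_hasDerivAt hg i).deriv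
    simp only [hd]
    have hb : ‖L‖ ≤ ∑ i, ‖L (EuclideanSpace.single i 1)‖ := by
      refine ContinuousLinearMap.opNorm_le_bound L (Finset.sum_nonneg fun i _ => norm_nonneg _) ?_
      intro v
      rw [sliceGrad_apply_eq_sum L v]
      calc ‖∑ i, v i * L (EuclideanSpace.single i 1)‖
          ≤ ∑ i, ‖v i * L (EuclideanSpace.single i 1)‖ := norm_sum_le _ _
        _ ≤ ∑ i, ‖L (EuclideanSpace.single i 1)‖ * ‖v‖ := by
            refine Finset.sum_le_sum fun i _ => ?_
            rw [norm_mul, mul_comm]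
            exact mul_le_mul_of_nonneg_left (PiLp.norm_apply_le v i) (norm_nonneg _)
        _ = (∑ i, ‖L (EuclideanSpace.single i 1)‖) * ‖v‖ := by rw [Finset.sum_mul]
    have h1 : ‖L‖ₑ = ENNReal.ofReal ‖L‖ := (ofReal_norm L).symm
    have h2 : ∀ i, ‖L (EuclideanSpace.single i 1)‖ₑ =
        ENNReal.ofReal ‖L (EuclideanSpace.single i 1)‖ := fun i => (ofReal_norm _).symm
    rw [h1]
    simp only [h2]
    rw [← ENNReal.ofReal_sum_of_nonneg fun i _ => norm_nonneg _]
    exact ENNReal.ofReal_le_ofReal hb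
  · rw [fderiv_zero_of_not_differentiableAt hg, ← ofReal_norm, norm_zero, ENNReal.ofReal_zero]
    exact bot_le

theorem enorm_deriv_slice_le_ae {g : EuclideanSpace ℝ ι → ℝ} {K : ℝ≥0}
    (hL : LipschitzWith K g) (i : ι) :
    ∀ᵐ x : EuclideanSpace ℝ ι, ‖deriv (slice g i x) (x i)‖ₑ ≤ ‖fderiv ℝ g x‖ₑ := by
  filter_upwards [hL.ae_differentiableAt] with x hx
  rw [(sliceGrad_hasDerivAt hx i).deriv]
  have h := (fderiv ℝ g x).le_opNorm (EuclideanSpace.single i (1:ℝ))
  have h1 : ‖(EuclideanSpace.single i (1:ℝ) : EuclideanSpace ℝ ι)‖ = 1 := by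
    simp
  rw [h1, mul_one] at h
  rw [← ofReal_norm, ← ofReal_norm]
  exact ENNReal.ofReal_le_ofReal h

end Vale.Agent.Lib.P137
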