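import Mathlib
import Vale.Agent.Lib.P137.OneDim
namespace Vale.Agent.Lib.P137
open MeasureTheory Set
open scoped ENNReal NNReal

/-- Variation on the positive half line of a Lipschitz profile that is nonincreasing and
nonnegative there. -/
theorem sliceOne_half_le {γ : ℝ → ℝ} {K : ℝ≥0} (hγ : LipschitzWith K γ)
    (hanti : AntitoneOn γ (Ici 0)) (hpos : ∀ t, 0 ≤ t → 0 ≤ γ t) :
    ∫⁻ t in Ioi (0:ℝ), ‖deriv γ t‖ₑ ≤ ENNReal.ofReal (γ 0) := by
  have hU : Ioi (0:ℝ) = ⋃ k : ℕ, Ioc (0:ℝ) k := by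
    ext t
    simp only [mem_Ioi, mem_iUnion, mem_Ioc]
    constructor
    · intro ht
      obtain ⟨k, hk⟩ := exists_nat_ge t
      exact ⟨k, ht, hk⟩
    · rintro ⟨k, ht, -⟩
      exact ht
  have hdir : Directed (· ⊆ ·) (fun k : ℕ => Ioc (0:ℝ) k) := by
    apply Monotone.directed_le
    intro i j hij
    exact Ioc_subset_Ioc_right (by exact_mod_cast hij)
  conv_lhs => rw [hU]
  rw [setLIntegral_iUnion_of_directed _ hdir]
  apply iSup_le
  intro k
  have hk : (0:ℝ) ≤ k := Nat.cast_nonneg k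
  have h1 := lintegral_pow_mul_deriv hγ hanti 0 hk
  simp only [pow_zero, ENNReal.ofReal_one, one_mul] at h1
  rw [h1]
  have h2 : AbsolutelyContinuousOnInterval γ 0 k :=
    (hγ.lipschitzOnWith (s := uIcc 0 (k:ℝ))).absolutelyContinuousOnInterval
  rw [h2.integral_deriv_eq_sub]
  apply ENNReal.ofReal_le_ofReal
  linarith [hpos k hk]

/-- The variation of an even function on the negative half line equals the one on the
positive half line. -/
theorem sliceOne_reflect {h : ℝ → ℝ} (heven : ∀ t, h (-t) = h t) :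
    ∫⁻ t in Iio (0:ℝ), ‖deriv h t‖ₑ = ∫⁻ t in Ioi (0:ℝ), ‖deriv h t‖ₑ := by
  have hd : ∀ t : ℝ, ‖deriv h (-t)‖ₑ = ‖deriv h t‖ₑ := by
    intro t
    have h1 : deriv (fun x => h (-x)) t = -deriv h (-t) := deriv_comp_neg h t
    have h2 : (fun x => h (-x)) = h := funext heven
    rw [h2] at h1
    rw [h1, enorm_neg]
  have hmeas : Measurable (fun t : ℝ => ‖deriv h t‖ₑ) := (measurable_deriv h).enorm
  have h3 := (Measure.measurePreserving_neg (volume : Measure ℝ)).setLIntegral_comp_preimage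
    (measurableSet_Iio (a := (0:ℝ))) hmeas
  have h4 : (fun t : ℝ => -t) ⁻¹' Iio (0:ℝ) = Ioi 0 := by
    ext t
    simp
  rw [h4] at h3
  rw [← h3]
  exact lintegral_congr (fun t => hd t)

/-- The whole-line variation is the sum of the variations on the two half lines. -/
theorem sliceOne_split (F : ℝ → ℝ≥0∞) :
    ∫⁻ t, F t = (∫⁻ t in Iio (0:ℝ), F t) + ∫⁻ t in Ioi (0:ℝ), F t := by
  have h1 : ∫⁻ t in Iio (0:ℝ), F t = ∫⁻ t in Iic (0:ℝ), F t :=
    setLIntegral_congr Iio_ae_eq_Iic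
  rw [h1, ← lintegral_union measurableSet_Ioi (Iic_disjoint_Ioi le_rfl), Iic_union_Ioi,
    Measure.restrict_univ]

theorem lintegral_deriv_le_of_even_decr {h : ℝ → ℝ} {K : ℝ≥0} (hL : LipschitzWith K h)
    (hmono : ∀ s t : ℝ, |s| ≤ |t| → h t ≤ h s) (h0 : ∀ t, 0 ≤ h t) :
    ∫⁻ t, ‖deriv h t‖ₑ ≤ 2 * ENNReal.ofReal (h 0) := by
  have heven : ∀ t, h (-t) = h t := by
    intro t
    exact le_antisymm (hmono t (-t) (by rw [abs_neg])) (hmono (-t) t (by rw [abs_neg]))
  have hanti : AntitoneOn h (Ici 0) := by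
    intro s hs t ht hst
    refine hmono s t ?_
    rw [abs_of_nonneg (mem_Ici.mp hs), abs_of_nonneg (mem_Ici.mp ht)]
    exact hst
  have hhalf := sliceOne_half_le hL hanti (fun t _ => h0 t)
  rw [sliceOne_split, sliceOne_reflect heven, two_mul]
  exact add_le_add hhalf hhalf

theorem le_lintegral_deriv_of_support {h : ℝ → ℝ} {K : ℝ≥0} (hL : LipschitzWith K h)
    {R : ℝ} (hR : ∀ t, R ≤ |t| → h t = 0) :
    2 * ENNReal.ofReal (h 0) ≤ ∫⁻ t, ‖deriv h t‖ₑ := by
  by_cases hpos : h 0 ≤ 0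
  · rw [ENNReal.ofReal_of_nonpos hpos, mul_zero]
    exact bot_le
  · have hpos' : 0 < h 0 := not_le.mp hpos
    have hRpos : 0 < R := by
      by_contra hR0
      have h1 := hR 0 (by rw [abs_zero]; exact not_lt.mp hR0)
      linarith
    have hRR : h R = 0 := hR R (le_abs_self R)
    have hRn : h (-R) = 0 := hR (-R) (by rw [abs_neg]; exact le_abs_self R)
    have hac1 : AbsolutelyContinuousOnInterval h 0 R :=
      (hL.lipschitzOnWith (s := uIcc 0 R)).absolutelyContinuousOnInterval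
    have hac2 : AbsolutelyContinuousOnInterval h (-R) 0 :=
      (hL.lipschitzOnWith (s := uIcc (-R) 0)).absolutelyContinuousOnInterval
    have hi1 : IntegrableOn (deriv h) (Ioc 0 R) volume :=
      (intervalIntegrable_iff_integrableOn_Ioc_of_le hRpos.le).mp hac1.intervalIntegrable_deriv
    have hi2 : IntegrableOn (deriv h) (Ioc (-R) 0) volume :=
      (intervalIntegrable_iff_integrableOn_Ioc_of_le (by linarith)).mp
        hac2.intervalIntegrable_deriv
    have e1 : ENNReal.ofReal (h 0) ≤ ∫⁻ t in Ioc 0 R, ‖deriv h t‖ₑ := by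
      rw [← ofReal_integral_norm_eq_lintegral_enorm hi1]
      apply ENNReal.ofReal_le_ofReal
      have h1 := hac1.integral_deriv_eq_sub
      rw [intervalIntegral.integral_of_le hRpos.le, hRR] at h1
      have h2 : -∫ t in Ioc 0 R, deriv h t ≤ ∫ t in Ioc 0 R, ‖deriv h t‖ := by
        rw [← integral_neg]
        exact integral_mono hi1.neg hi1.norm (fun t => neg_le_abs (deriv h t))
      linarith
    have e2 : ENNReal.ofReal (h 0) ≤ ∫⁻ t in Ioc (-R) 0, ‖deriv h t‖ₑ := by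
      rw [← ofReal_integral_norm_eq_lintegral_enorm hi2]
      apply ENNReal.ofReal_le_ofReal
      have h1 := hac2.integral_deriv_eq_sub
      rw [intervalIntegral.integral_of_le (by linarith), hRn] at h1
      have h2 : ∫ t in Ioc (-R) 0, deriv h t ≤ ∫ t in Ioc (-R) 0, ‖deriv h t‖ :=
        integral_mono hi2 hi2.norm (fun t => le_abs_self (deriv h t))
      linarith
    calc 2 * ENNReal.ofReal (h 0) = ENNReal.ofReal (h 0) + ENNReal.ofReal (h 0) := two_mul _
      _ ≤ (∫⁻ t in Ioc (-R) 0, ‖deriv h t‖ₑ) + ∫⁻ t in Ioc 0 R, ‖deriv h t‖ₑ :=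
          add_le_add e2 e1
      _ = ∫⁻ t in Ioc (-R) 0 ∪ Ioc 0 R, ‖deriv h t‖ₑ := by
          rw [lintegral_union measurableSet_Ioc]
          exact Set.disjoint_left.mpr (fun t ht1 ht2 => absurd ht1.2 (not_le.mpr ht2.1))
      _ ≤ ∫⁻ t, ‖deriv h t‖ₑ := setLIntegral_le_lintegral _ _

end Vale.Agent.Lib.P137
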