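import Mathlib
import Vale.Agent.Lib.P137.Hyper
import Vale.Agent.Lib.P137.SliceOne
import Vale.Agent.Lib.P137.SliceGrad
namespace Vale.Agent.Lib.P137
open MeasureTheory Set Metric
open scoped ENNReal NNReal
variable {ι : Type*} [Fintype ι] [DecidableEq ι]

omit [Fintype ι] [DecidableEq ι] in
theorem slicing_apply (p : ι → ℝ) (j : ι) : (WithLp.toLp 2 p : EuclideanSpace ℝ ι) j = p j := rfl

/-- The coordinate line through `p` in direction `i` is a `1`-Lipschitz curve. -/
theorem slicing_line_lipschitz (p : ι → ℝ) (i : ι) :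
    LipschitzWith 1 (fun s : ℝ => (WithLp.toLp 2 (Function.update p i s) : EuclideanSpace ℝ ι)) := by
  refine LipschitzWith.of_dist_le_mul (fun s t => ?_)
  rw [NNReal.coe_one, one_mul, EuclideanSpace.dist_eq]
  rw [Finset.sum_eq_single i]
  · simp only [Function.update_self]
    rw [Real.sqrt_sq dist_nonneg]
  · intro j _ hj
    simp only [Function.update_of_ne hj, dist_self]
    norm_num
  · intro hi
    exact absurd (Finset.mem_univ i) hi

theorem slicing_slice_lipschitz {g : EuclideanSpace ℝ ι → ℝ} {K : ℝ≥0}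
    (hL : LipschitzWith K g) (i : ι) (x : EuclideanSpace ℝ ι) :
    LipschitzWith K (slice g i x) := by
  have h := hL.comp (slicing_line_lipschitz (WithLp.ofLp x) i)
  rw [mul_one] at h
  exact h

/-- Measurability of the derivative along the coordinate lines in direction `i`. -/
theorem slicing_measurable {g : EuclideanSpace ℝ ι → ℝ} (hg : Continuous g) (i : ι) :
    Measurable (fun p : ι → ℝ => ‖deriv (slice g i (WithLp.toLp 2 p)) (p i)‖ₑ) := by
  have hcont : Continuous (Function.uncurry
      (fun (p : ι → ℝ) (s : ℝ) => g (WithLp.toLp 2 (Function.update p i s)))) := by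
    refine hg.comp ?_
    refine (PiLp.continuous_toLp 2 _).comp ?_
    exact continuous_fst.update i continuous_snd
  have h1 := measurable_deriv_with_param hcont
  have h2 : Measurable (fun p : ι → ℝ => (p, p i)) :=
    measurable_id.prodMk (measurable_pi_apply i)
  exact (h1.comp h2).enorm

/-- Fubini along the coordinate lines in direction `i`. -/
theorem slicing_lintegral_eq {g : EuclideanSpace ℝ ι → ℝ} (hg : Continuous g) (i : ι) :
    ∫⁻ x : EuclideanSpace ℝ ι, ‖deriv (slice g i x) (x i)‖ₑ
      = ∫⁻ y : (∀ _ : ↥(Finset.univ.erase i), ℝ),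
          (∫⁻ t, ‖deriv (slice g i (WithLp.toLp 2
            (Function.updateFinset (0 : ι → ℝ) (Finset.univ.erase i) y))) t‖ₑ)
          ∂(Measure.pi fun _ : ↥(Finset.univ.erase i) => (volume : Measure ℝ)) := by
  have hFm := slicing_measurable hg i
  have h1 : ∫⁻ x : EuclideanSpace ℝ ι, ‖deriv (slice g i x) (x i)‖ₑ
      = ∫⁻ p : ι → ℝ, ‖deriv (slice g i (WithLp.toLp 2 p)) (p i)‖ₑ := by
    rw [← (PiLp.volume_preserving_ofLp ι).lintegral_comp hFm]
  have h2 : ∫⁻ p : ι → ℝ, ‖deriv (slice g i (WithLp.toLp 2 p)) (p i)‖ₑ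
      = (∫⋯∫⁻_Finset.univ, (fun p : ι → ℝ => ‖deriv (slice g i (WithLp.toLp 2 p)) (p i)‖ₑ)
          ∂(fun _ : ι => (volume : Measure ℝ))) 0 := by
    rw [← lintegral_eq_lmarginal_univ (0 : ι → ℝ)]
    rfl
  rw [h1, h2, lmarginal_erase' _ hFm (Finset.mem_univ i)]
  unfold lmarginal
  refine lintegral_congr (fun y => lintegral_congr (fun t => ?_))
  rw [Function.update_self]
  have h3 : slice g i (WithLp.toLp 2 (Function.update
      (Function.updateFinset (0 : ι → ℝ) (Finset.univ.erase i) y) i t))
      = slice g i (WithLp.toLp 2 (Function.updateFinset (0 : ι → ℝ) (Finset.univ.erase i) y)) := by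
    funext s
    unfold slice
    rw [Function.update_idem]
  rw [h3]

/-- The hyperplane integral as an integral over the remaining coordinates. -/
theorem slicing_hyperInt_eq (i : ι) (g : EuclideanSpace ℝ ι → ℝ) :
    2 * hyperInt i (fun x => ENNReal.ofReal (g x))
      = ∫⁻ y : (∀ _ : ↥(Finset.univ.erase i), ℝ),
          2 * ENNReal.ofReal (slice g i (WithLp.toLp 2
            (Function.updateFinset (0 : ι → ℝ) (Finset.univ.erase i) y)) 0)
          ∂(Measure.pi fun _ : ↥(Finset.univ.erase i) => (volume : Measure ℝ)) := by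
  unfold hyperInt lmarginal
  rw [← lintegral_const_mul' _ _ (by norm_num)]
  refine lintegral_congr (fun y => ?_)
  have h1 : Function.updateFinset (0 : ι → ℝ) (Finset.univ.erase i) y i = 0 := by
    rw [Function.updateFinset_def]
    simp
  have h2 : Function.update (Function.updateFinset (0 : ι → ℝ) (Finset.univ.erase i) y) i 0
      = Function.updateFinset (0 : ι → ℝ) (Finset.univ.erase i) y := by
    rw [← h1, Function.update_eq_self]
  unfold slice
  rw [h2]

theorem lintegral_fderiv_le_hyperInt {g : EuclideanSpace ℝ ι → ℝ} {K : ℝ≥0}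
    (hL : LipschitzWith K g)
    (hBD : ∀ x y : EuclideanSpace ℝ ι, (∀ i, |x i| ≤ |y i|) → g y ≤ g x)
    (h0 : ∀ x, 0 ≤ g x) :
    ∫⁻ x, ‖fderiv ℝ g x‖ₑ ≤ ∑ i, 2 * hyperInt i (fun x => ENNReal.ofReal (g x)) := by
  have hg := hL.continuous
  have hmeas : ∀ i : ι,
      Measurable (fun x : EuclideanSpace ℝ ι => ‖deriv (slice g i x) (x i)‖ₑ) := fun i =>
    (slicing_measurable hg i).comp (WithLp.measurable_ofLp 2 (ι → ℝ))
  calc ∫⁻ x, ‖fderiv ℝ g x‖ₑ
      ≤ ∫⁻ x, ∑ i, ‖deriv (slice g i x) (x i)‖ₑ :=
        lintegral_mono (fun x => enorm_fderiv_le_sum g x)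
    _ = ∑ i, ∫⁻ x, ‖deriv (slice g i x) (x i)‖ₑ :=
        lintegral_finsetSum _ (fun i _ => hmeas i)
    _ ≤ ∑ i, 2 * hyperInt i (fun x => ENNReal.ofReal (g x)) := by
        refine Finset.sum_le_sum (fun i _ => ?_)
        rw [slicing_lintegral_eq hg i, slicing_hyperInt_eq i g]
        refine lintegral_mono (fun y => ?_)
        refine lintegral_deriv_le_of_even_decr (slicing_slice_lipschitz hL i _) ?_
          (fun t => h0 _)
        intro s t hst
        refine hBD _ _ (fun j => ?_)
        rw [slicing_apply, slicing_apply]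
        by_cases hj : j = i
        · rw [hj, Function.update_self, Function.update_self]
          exact hst
        · rw [Function.update_of_ne hj, Function.update_of_ne hj]

theorem hyperInt_le_lintegral_fderiv {g : EuclideanSpace ℝ ι → ℝ} {K : ℝ≥0}
    (hL : LipschitzWith K g) {R : ℝ} (hR : ∀ x, R ≤ ‖x‖ → g x = 0) (i : ι) :
    2 * hyperInt i (fun x => ENNReal.ofReal (g x)) ≤ ∫⁻ x, ‖fderiv ℝ g x‖ₑ := by
  have hg := hL.continuous
  calc 2 * hyperInt i (fun x => ENNReal.ofReal (g x))
      ≤ ∫⁻ x, ‖deriv (slice g i x) (x i)‖ₑ := by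
        rw [slicing_lintegral_eq hg i, slicing_hyperInt_eq i g]
        refine lintegral_mono (fun y => ?_)
        refine le_lintegral_deriv_of_support (slicing_slice_lipschitz hL i _) (R := R) ?_
        intro t ht
        refine hR _ (le_trans ht ?_)
        have h1 := PiLp.norm_apply_le (WithLp.toLp 2 (Function.update
          (Function.updateFinset (0 : ι → ℝ) (Finset.univ.erase i) y) i t) :
            EuclideanSpace ℝ ι) i
        have h2 : (WithLp.toLp 2 (Function.update
          (Function.updateFinset (0 : ι → ℝ) (Finset.univ.erase i) y) i t) :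
            EuclideanSpace ℝ ι) i = t := by
          rw [slicing_apply, Function.update_self]
        rw [h2, Real.norm_eq_abs] at h1
        exact h1
    _ ≤ ∫⁻ x, ‖fderiv ℝ g x‖ₑ := lintegral_mono_ae (enorm_deriv_slice_le_ae hL i)

end Vale.Agent.Lib.P137
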