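import Mathlib
import Vale.Agent.Lib.P137.Hyper
import Vale.Agent.Lib.P137.Hardy
namespace Vale.Agent.Lib.P137
open MeasureTheory Set Metric
open scoped ENNReal NNReal
variable {ι : Type*} [Fintype ι] [DecidableEq ι]

/-- The point of the coordinate hyperplane with the given remaining coordinates. -/
noncomputable def tonelliPt (i : ι) (y : ↥(Finset.univ.erase i) → ℝ) : EuclideanSpace ℝ ι :=
  WithLp.toLp 2 (Function.updateFinset (0 : ι → ℝ) (Finset.univ.erase i) y)

lemma tonelliPt_self (i : ι) (y : ↥(Finset.univ.erase i) → ℝ) : (tonelliPt i y) i = 0 := by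
  simp [tonelliPt, Function.updateFinset_def]

lemma tonelliPt_coe (i : ι) (y : ↥(Finset.univ.erase i) → ℝ) (j : ↥(Finset.univ.erase i)) :
    (tonelliPt i y) (j : ι) = y j := by
  have hne : (j : ι) ≠ i := Finset.ne_of_mem_erase j.2
  simp [tonelliPt, Function.updateFinset_def, hne]

lemma measurable_tonelliPt (i : ι) : Measurable (tonelliPt i) :=
  (WithLp.measurable_toLp 2 _).comp measurable_updateFinset

omit [DecidableEq ι] in
lemma tonelli_measurable_coord (k : ι) : Measurable (fun z : EuclideanSpace ℝ ι => z k) :=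
  (EuclideanSpace.proj k).continuous.measurable

lemma tonelli_hyperInt_eq (i : ι) (F : EuclideanSpace ℝ ι → ℝ≥0∞) :
    hyperInt i F = ∫⁻ y, F (tonelliPt i y)
      ∂(Measure.pi fun _ : ↥(Finset.univ.erase i) => (volume : Measure ℝ)) := rfl

/-- Finite subadditivity of the set integral. -/
lemma tonelli_lintegral_biUnion_le {α β : Type*} [MeasurableSpace α] (μ : Measure α)
    (s : Finset β) (t : β → Set α) (g : α → ℝ≥0∞) :
    ∫⁻ a in ⋃ b ∈ s, t b, g a ∂μ ≤ ∑ b ∈ s, ∫⁻ a in t b, g a ∂μ := by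
  classical
  induction s using Finset.induction_on with
  | empty => simp
  | insert b s hb ih =>
    rw [Finset.set_biUnion_insert, Finset.sum_insert hb]
    exact (lintegral_union_le _ _ _).trans (add_le_add le_rfl ih)

/-- The kernel constant: for a positive radius it is the inverse of the radius times the
volume of the ball of that radius. -/
noncomputable def tonelliKer (ι : Type*) [Fintype ι] (ρ : ℝ) : ℝ≥0∞ :=
  ENNReal.ofReal ((ρ ^ (Fintype.card ι + 1))⁻¹) * (volume (ball (0 : EuclideanSpace ℝ ι) 1))⁻¹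

omit [DecidableEq ι] in
lemma measurable_tonelliKer : Measurable (tonelliKer ι) := by
  unfold tonelliKer
  fun_prop

omit [DecidableEq ι] in
lemma tonelli_unit_ball_ne_zero : volume (ball (0 : EuclideanSpace ℝ ι) 1) ≠ 0 :=
  (measure_ball_pos volume _ one_pos).ne'

omit [DecidableEq ι] in
lemma tonelli_unit_ball_ne_top : volume (ball (0 : EuclideanSpace ℝ ι) 1) ≠ ⊤ :=
  measure_ball_lt_top.ne

omit [DecidableEq ι] in
lemma tonelli_div_eq (x : EuclideanSpace ℝ ι) {ρ : ℝ} (hρ : 0 < ρ) (A : ℝ≥0∞) :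
    A / volume (ball x ρ) / ENNReal.ofReal ρ = A * tonelliKer ι ρ := by
  rw [Measure.addHaar_ball_of_pos volume x hρ, finrank_euclideanSpace]
  have hpow : 0 < ρ ^ Fintype.card ι := pow_pos hρ _
  unfold tonelliKer
  rw [div_eq_mul_inv, div_eq_mul_inv,
    ENNReal.mul_inv (Or.inr tonelli_unit_ball_ne_top) (Or.inr tonelli_unit_ball_ne_zero),
    ← ENNReal.ofReal_inv_of_pos hpow, ← ENNReal.ofReal_inv_of_pos hρ, pow_succ, mul_inv,
    ENNReal.ofReal_mul (inv_nonneg.mpr hpow.le)]
  ring

/-- The set of triples (hyperplane point, radius, point) used in the Tonelli argument. -/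
def tonelliSet (i k : ι) : Set ((↥(Finset.univ.erase i) → ℝ) × (ℝ × EuclideanSpace ℝ ι)) :=
  {q | |(tonelliPt i q.1) k| / 2 < q.2.1 ∧ dist q.2.2 (tonelliPt i q.1) < q.2.1}

lemma measurableSet_tonelliSet (i k : ι) : MeasurableSet (tonelliSet i k) := by
  have h0 : Measurable (fun q : (↥(Finset.univ.erase i) → ℝ) × (ℝ × EuclideanSpace ℝ ι) =>
      (tonelliPt i q.1) k) :=
    (tonelli_measurable_coord k).comp ((measurable_tonelliPt i).comp measurable_fst)
  have h1 : MeasurableSet {q : (↥(Finset.univ.erase i) → ℝ) × (ℝ × EuclideanSpace ℝ ι) |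
      |(tonelliPt i q.1) k| / 2 < q.2.1} :=
    measurableSet_lt ((h0.abs).div_const 2) (measurable_fst.comp measurable_snd)
  have h2 : MeasurableSet {q : (↥(Finset.univ.erase i) → ℝ) × (ℝ × EuclideanSpace ℝ ι) |
      dist q.2.2 (tonelliPt i q.1) < q.2.1} :=
    measurableSet_lt
      ((measurable_snd.comp measurable_snd).dist ((measurable_tonelliPt i).comp measurable_fst))
      (measurable_fst.comp measurable_snd)
  exact h1.inter h2

/-- The joint integrand of the Tonelli argument. -/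
noncomputable def tonelliG (f : EuclideanSpace ℝ ι → ℝ) (i k : ι) :
    (↥(Finset.univ.erase i) → ℝ) × (ℝ × EuclideanSpace ℝ ι) → ℝ≥0∞ :=
  (tonelliSet i k).indicator (fun q => ENNReal.ofReal (f q.2.2) * tonelliKer ι q.2.1)

lemma measurable_tonelliG {f : EuclideanSpace ℝ ι → ℝ} (hf : Continuous f) (i k : ι) :
    Measurable (tonelliG f i k) := by
  refine Measurable.indicator ?_ (measurableSet_tonelliSet i k)
  exact ((hf.measurable.comp (measurable_snd.comp measurable_snd)).ennreal_ofReal).mul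
    (measurable_tonelliKer.comp (measurable_fst.comp measurable_snd))

lemma tonelli_inner_eq {f : EuclideanSpace ℝ ι → ℝ} (hf : Continuous f) (i k : ι)
    (y : ↥(Finset.univ.erase i) → ℝ) :
    ∫⁻ ρ in Ioi (|(tonelliPt i y) k| / 2),
        (∫⁻ z in ball (tonelliPt i y) ρ, ENNReal.ofReal (f z))
          / volume (ball (tonelliPt i y) ρ) / ENNReal.ofReal ρ
      = ∫⁻ p, tonelliG f i k (y, p)
          ∂((volume : Measure ℝ).prod (volume : Measure (EuclideanSpace ℝ ι))) := by
  rw [lintegral_prod (fun p : ℝ × EuclideanSpace ℝ ι => tonelliG f i k (y, p))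
      ((measurable_tonelliG hf i k).comp measurable_prodMk_left).aemeasurable,
    ← lintegral_indicator measurableSet_Ioi]
  refine lintegral_congr (fun ρ => ?_)
  by_cases hρ : |(tonelliPt i y) k| / 2 < ρ
  · have hρ0 : 0 < ρ := lt_of_le_of_lt (by positivity) hρ
    rw [indicator_of_mem (mem_Ioi.mpr hρ), tonelli_div_eq _ hρ0,
      ← lintegral_indicator measurableSet_ball,
      ← lintegral_mul_const _ ((hf.measurable.ennreal_ofReal).indicator measurableSet_ball)]
    refine lintegral_congr (fun z => ?_)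
    by_cases hz : z ∈ ball (tonelliPt i y) ρ
    · have hmem : (y, (ρ, z)) ∈ tonelliSet i k := ⟨hρ, mem_ball.mp hz⟩
      rw [indicator_of_mem hz, tonelliG, indicator_of_mem hmem]
    · have hmem : (y, (ρ, z)) ∉ tonelliSet i k := fun h => hz (mem_ball.mpr h.2)
      rw [indicator_of_notMem hz, tonelliG, indicator_of_notMem hmem, zero_mul]
  · have hρ' : ρ ∉ Ioi (|(tonelliPt i y) k| / 2) := hρ
    rw [indicator_of_notMem hρ']
    have hzero : ∀ z, tonelliG f i k (y, (ρ, z)) = 0 := fun z => by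
      have hmem : (y, (ρ, z)) ∉ tonelliSet i k := fun h => hρ h.1
      rw [tonelliG, indicator_of_notMem hmem]
    simp [hzero]

/-- The bound obtained after integrating out the hyperplane variable. -/
noncomputable def tonelliH (f : EuclideanSpace ℝ ι → ℝ) (i k : ι) :
    ℝ × EuclideanSpace ℝ ι → ℝ≥0∞ :=
  {p : ℝ × EuclideanSpace ℝ ι | 0 < p.1 ∧ max |p.2 i| |p.2 k| / 3 < p.1}.indicator
    (fun p => ENNReal.ofReal (f p.2) * tonelliKer ι p.1
      * ENNReal.ofReal (2 * p.1) ^ (Fintype.card ι - 1))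

omit [DecidableEq ι] in
lemma measurable_tonelliH {f : EuclideanSpace ℝ ι → ℝ} (hf : Continuous f) (i k : ι) :
    Measurable (tonelliH f i k) := by
  refine Measurable.indicator ?_ ?_
  · exact (((hf.measurable.comp measurable_snd).ennreal_ofReal).mul
      (measurable_tonelliKer.comp measurable_fst)).mul
      ((measurable_fst.const_mul 2).ennreal_ofReal.pow_const _)
  · apply MeasurableSet.inter
    · exact measurableSet_lt measurable_const measurable_fst
    · refine measurableSet_lt ?_ measurable_fst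
      have h1 : Measurable (fun p : ℝ × EuclideanSpace ℝ ι => |p.2 i|) :=
        ((tonelli_measurable_coord i).comp measurable_snd).abs
      have h2 : Measurable (fun p : ℝ × EuclideanSpace ℝ ι => |p.2 k|) :=
        ((tonelli_measurable_coord k).comp measurable_snd).abs
      exact (h1.max h2).div_const 3

omit [DecidableEq ι] in
lemma tonelli_coord_le_dist (z x : EuclideanSpace ℝ ι) (j : ι) : |z j - x j| ≤ dist z x := by
  have h := PiLp.norm_apply_le (z - x) j
  rw [dist_eq_norm]
  simpa using h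

lemma tonelli_geom (f : EuclideanSpace ℝ ι → ℝ) (i k : ι) (ρ : ℝ)
    (z : EuclideanSpace ℝ ι) :
    ∫⁻ y, tonelliG f i k (y, (ρ, z))
        ∂(Measure.pi fun _ : ↥(Finset.univ.erase i) => (volume : Measure ℝ))
      ≤ tonelliH f i k (ρ, z) := by
  set A : Set (↥(Finset.univ.erase i) → ℝ) := {y | (y, (ρ, z)) ∈ tonelliSet i k} with hA
  have hind : ∀ y, tonelliG f i k (y, (ρ, z))
      = A.indicator (fun _ => ENNReal.ofReal (f z) * tonelliKer ι ρ) y := by
    intro y
    by_cases hy : (y, (ρ, z)) ∈ tonelliSet i k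
    · have hyA : y ∈ A := hy
      rw [tonelliG, indicator_of_mem hy, indicator_of_mem hyA]
    · have hyA : y ∉ A := hy
      rw [tonelliG, indicator_of_notMem hy, indicator_of_notMem hyA]
  simp only [hind]
  refine (lintegral_indicator_const_le A _).trans ?_
  by_cases hcond : 0 < ρ ∧ max |z i| |z k| / 3 < ρ
  · have hmemH : (ρ, z) ∈ {p : ℝ × EuclideanSpace ℝ ι | 0 < p.1 ∧ max |p.2 i| |p.2 k| / 3 < p.1} :=
      hcond
    rw [tonelliH, indicator_of_mem hmemH]
    refine mul_le_mul_right ?_ _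
    have hsub : A ⊆ Set.pi univ (fun j : ↥(Finset.univ.erase i) =>
        Ioo (z (j : ι) - ρ) (z (j : ι) + ρ)) := by
      intro y hy j _
      have hd : dist z (tonelliPt i y) < ρ := hy.2
      have hj := (tonelli_coord_le_dist z (tonelliPt i y) (j : ι)).trans_lt hd
      rw [tonelliPt_coe, abs_lt] at hj
      exact ⟨by linarith [hj.2], by linarith [hj.1]⟩
    refine (measure_mono hsub).trans ?_
    rw [Measure.pi_pi]
    have hvol : ∀ j : ↥(Finset.univ.erase i),
        (volume : Measure ℝ) (Ioo (z (j : ι) - ρ) (z (j : ι) + ρ)) = ENNReal.ofReal (2 * ρ) := by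
      intro j
      rw [Real.volume_Ioo]
      congr 1
      ring
    simp only [hvol, Finset.prod_const, Finset.card_univ, Fintype.card_coe,
      Finset.card_erase_of_mem (Finset.mem_univ i)]
    exact le_rfl
  · have hAempty : A = ∅ := by
      rw [Set.eq_empty_iff_forall_notMem]
      intro y hy
      apply hcond
      have h1 : |(tonelliPt i y) k| / 2 < ρ := hy.1
      have hd : dist z (tonelliPt i y) < ρ := hy.2
      have hρ0 : 0 < ρ := lt_of_le_of_lt (by positivity) h1
      have hi := (tonelli_coord_le_dist z (tonelliPt i y) i).trans_lt hd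
      rw [tonelliPt_self, sub_zero] at hi
      have hk' := (tonelli_coord_le_dist z (tonelliPt i y) k).trans_lt hd
      have hzk : |z k| < 3 * ρ := by
        have h3 : |z k| ≤ |z k - (tonelliPt i y) k| + |(tonelliPt i y) k| := by
          have := abs_add_le (z k - (tonelliPt i y) k) ((tonelliPt i y) k)
          simpa using this
        linarith
      refine ⟨hρ0, ?_⟩
      rw [div_lt_iff₀ (by norm_num : (0:ℝ) < 3)]
      exact max_lt (by linarith) (by linarith)
    rw [hAempty, measure_empty, mul_zero]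
    exact zero_le

omit [DecidableEq ι] in
lemma tonelli_ker_mul {ρ : ℝ} (hρ : 0 < ρ) (i : ι) :
    tonelliKer ι ρ * ENNReal.ofReal (2 * ρ) ^ (Fintype.card ι - 1)
      = 2 ^ (Fintype.card ι - 1) * (volume (ball (0 : EuclideanSpace ℝ ι) 1))⁻¹
        * ENNReal.ofReal ((ρ ^ 2)⁻¹) := by
  have hcard : 0 < Fintype.card ι := Fintype.card_pos_iff.mpr ⟨i⟩
  obtain ⟨n, hn⟩ : ∃ n, Fintype.card ι = n + 1 := ⟨Fintype.card ι - 1, by omega⟩
  unfold tonelliKer
  rw [hn, Nat.add_sub_cancel, ← ENNReal.ofReal_pow (by positivity)]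
  have hreal : (ρ ^ (n + 1 + 1))⁻¹ * (2 * ρ) ^ n = 2 ^ n * (ρ ^ 2)⁻¹ := by
    field_simp
    ring
  calc ENNReal.ofReal ((ρ ^ (n + 1 + 1))⁻¹) * (volume (ball (0 : EuclideanSpace ℝ ι) 1))⁻¹
        * ENNReal.ofReal ((2 * ρ) ^ n)
      = ENNReal.ofReal ((ρ ^ (n + 1 + 1))⁻¹ * (2 * ρ) ^ n)
          * (volume (ball (0 : EuclideanSpace ℝ ι) 1))⁻¹ := by
        rw [ENNReal.ofReal_mul (by positivity)]
        ring
    _ = 2 ^ n * (volume (ball (0 : EuclideanSpace ℝ ι) 1))⁻¹ * ENNReal.ofReal ((ρ ^ 2)⁻¹) := by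
        rw [hreal, ENNReal.ofReal_mul (by positivity), ENNReal.ofReal_pow (by norm_num),
          ENNReal.ofReal_ofNat]
        ring

omit [DecidableEq ι] in
lemma tonelli_radial (f : EuclideanSpace ℝ ι → ℝ) (i k : ι) (z : EuclideanSpace ℝ ι) :
    ∫⁻ ρ, tonelliH f i k (ρ, z)
      ≤ (3 * 2 ^ (Fintype.card ι - 1) / volume (ball (0 : EuclideanSpace ℝ ι) 1))
        * (ENNReal.ofReal (f z) / ENNReal.ofReal (max |z i| |z k|)) := by
  have hm0 : 0 ≤ max |z i| |z k| := le_max_of_le_left (abs_nonneg _)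
  have hC0 : (3 * 2 ^ (Fintype.card ι - 1) / volume (ball (0 : EuclideanSpace ℝ ι) 1) : ℝ≥0∞)
      ≠ 0 := by
    rw [Ne, ENNReal.div_eq_zero_iff, not_or]
    refine ⟨?_, tonelli_unit_ball_ne_top⟩
    exact mul_ne_zero (by norm_num) (pow_ne_zero _ (by norm_num))
  rcases hm0.eq_or_lt with hm | hm
  · -- degenerate case
    by_cases hφ : ENNReal.ofReal (f z) = 0
    · have hzero : ∀ ρ, tonelliH f i k (ρ, z) = 0 := by
        intro ρ
        unfold tonelliH
        by_cases hmem : (ρ, z) ∈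
            {p : ℝ × EuclideanSpace ℝ ι | 0 < p.1 ∧ max |p.2 i| |p.2 k| / 3 < p.1}
        · rw [indicator_of_mem hmem]
          simp only [hφ, zero_mul]
        · rw [indicator_of_notMem hmem]
      simp [hzero]
    · rw [← hm, ENNReal.ofReal_zero, ENNReal.div_zero hφ, ENNReal.mul_top hC0]
      exact le_top
  · -- main case
    have hm3 : 0 < max |z i| |z k| / 3 := by positivity
    have hfun : ∀ ρ, tonelliH f i k (ρ, z)
        = (Ioi (max |z i| |z k| / 3)).indicator (fun ρ => ENNReal.ofReal (f z)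
            * (2 ^ (Fintype.card ι - 1) * (volume (ball (0 : EuclideanSpace ℝ ι) 1))⁻¹)
            * ENNReal.ofReal ((ρ ^ 2)⁻¹)) ρ := by
      intro ρ
      unfold tonelliH
      by_cases hρ : max |z i| |z k| / 3 < ρ
      · have hρ0 : 0 < ρ := hm3.trans hρ
        have hmem : (ρ, z) ∈
            {p : ℝ × EuclideanSpace ℝ ι | 0 < p.1 ∧ max |p.2 i| |p.2 k| / 3 < p.1} := ⟨hρ0, hρ⟩
        rw [indicator_of_mem hmem, indicator_of_mem (mem_Ioi.mpr hρ)]
        show ENNReal.ofReal (f z) * tonelliKer ι ρ * ENNReal.ofReal (2 * ρ) ^ (Fintype.card ι - 1)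
          = _
        rw [mul_assoc, tonelli_ker_mul hρ0 i, ← mul_assoc]
      · have hmem : (ρ, z) ∉
            {p : ℝ × EuclideanSpace ℝ ι | 0 < p.1 ∧ max |p.2 i| |p.2 k| / 3 < p.1} :=
          fun h => hρ h.2
        have hρ' : ρ ∉ Ioi (max |z i| |z k| / 3) := hρ
        rw [indicator_of_notMem hmem, indicator_of_notMem hρ']
    simp only [hfun]
    rw [lintegral_indicator measurableSet_Ioi, lintegral_const_mul _ (by fun_prop),
      lintegral_Ioi_inv_sq hm3]
    have h3 : ENNReal.ofReal ((max |z i| |z k| / 3)⁻¹)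
        = 3 * (ENNReal.ofReal (max |z i| |z k|))⁻¹ := by
      rw [inv_div, div_eq_mul_inv, ENNReal.ofReal_mul (by norm_num),
        ENNReal.ofReal_inv_of_pos hm, ENNReal.ofReal_ofNat]
    rw [h3, div_eq_mul_inv, div_eq_mul_inv]
    apply le_of_eq
    ring

theorem hyperInt_tail_le {f : EuclideanSpace ℝ ι → ℝ} (hf : Continuous f) (i : ι) :
    hyperInt i (fun x => ∫⁻ ρ in {ρ : ℝ | ∃ k, k ≠ i ∧ |x k| / 2 < ρ},
        (∫⁻ z in ball x ρ, ENNReal.ofReal (f z)) / volume (ball x ρ) / ENNReal.ofReal ρ)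
      ≤ (3 * 2 ^ (Fintype.card ι - 1) / volume (ball (0 : EuclideanSpace ℝ ι) 1)) *
        ∑ k ∈ Finset.univ.erase i,
          ∫⁻ z : EuclideanSpace ℝ ι, ENNReal.ofReal (f z) / ENNReal.ofReal (max |z i| |z k|) := by
  have hC : (3 * 2 ^ (Fintype.card ι - 1) / volume (ball (0 : EuclideanSpace ℝ ι) 1) : ℝ≥0∞)
      ≠ ⊤ := by
    refine ENNReal.div_ne_top ?_ tonelli_unit_ball_ne_zero
    exact ENNReal.mul_ne_top (by norm_num) (ENNReal.pow_ne_top (by norm_num))
  rw [tonelli_hyperInt_eq]
  calc ∫⁻ y, (∫⁻ ρ in {ρ : ℝ | ∃ k, k ≠ i ∧ |(tonelliPt i y) k| / 2 < ρ},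
          (∫⁻ z in ball (tonelliPt i y) ρ, ENNReal.ofReal (f z))
            / volume (ball (tonelliPt i y) ρ) / ENNReal.ofReal ρ)
          ∂(Measure.pi fun _ : ↥(Finset.univ.erase i) => (volume : Measure ℝ))
      ≤ ∫⁻ y, ∑ k ∈ Finset.univ.erase i, ∫⁻ p, tonelliG f i k (y, p)
            ∂((volume : Measure ℝ).prod (volume : Measure (EuclideanSpace ℝ ι)))
          ∂(Measure.pi fun _ : ↥(Finset.univ.erase i) => (volume : Measure ℝ)) := by
        refine lintegral_mono (fun y => ?_)
        have hset : {ρ : ℝ | ∃ k, k ≠ i ∧ |(tonelliPt i y) k| / 2 < ρ}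
            = ⋃ k ∈ Finset.univ.erase i, Ioi (|(tonelliPt i y) k| / 2) := by
          ext ρ
          simp only [Set.mem_ofPred_eq, mem_iUnion, Finset.mem_erase, Finset.mem_univ, and_true,
            mem_Ioi, exists_prop]
        show ∫⁻ ρ in {ρ : ℝ | ∃ k, k ≠ i ∧ |(tonelliPt i y) k| / 2 < ρ}, _ ≤ _
        rw [hset]
        refine (tonelli_lintegral_biUnion_le _ _ _ _).trans (le_of_eq ?_)
        exact Finset.sum_congr rfl (fun k _ => tonelli_inner_eq hf i k y)
    _ = ∑ k ∈ Finset.univ.erase i, ∫⁻ y, ∫⁻ p, tonelliG f i k (y, p)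
            ∂((volume : Measure ℝ).prod (volume : Measure (EuclideanSpace ℝ ι)))
          ∂(Measure.pi fun _ : ↥(Finset.univ.erase i) => (volume : Measure ℝ)) :=
        lintegral_finsetSum _ (fun k _ => (measurable_tonelliG hf i k).lintegral_prod_right')
    _ = ∑ k ∈ Finset.univ.erase i, ∫⁻ p, ∫⁻ y, tonelliG f i k (y, p)
            ∂(Measure.pi fun _ : ↥(Finset.univ.erase i) => (volume : Measure ℝ))
          ∂((volume : Measure ℝ).prod (volume : Measure (EuclideanSpace ℝ ι))) := by
        refine Finset.sum_congr rfl (fun k _ => ?_)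
        exact lintegral_lintegral_swap (f := fun y p => tonelliG f i k (y, p))
          (measurable_tonelliG hf i k).aemeasurable
    _ ≤ ∑ k ∈ Finset.univ.erase i, ∫⁻ p, tonelliH f i k p
          ∂((volume : Measure ℝ).prod (volume : Measure (EuclideanSpace ℝ ι))) := by
        refine Finset.sum_le_sum (fun k _ => lintegral_mono (fun p => ?_))
        exact tonelli_geom f i k p.1 p.2
    _ = ∑ k ∈ Finset.univ.erase i, ∫⁻ z : EuclideanSpace ℝ ι, ∫⁻ ρ, tonelliH f i k (ρ, z) := by
        refine Finset.sum_congr rfl (fun k _ => ?_)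
        exact lintegral_prod_symm' _ (measurable_tonelliH hf i k)
    _ ≤ ∑ k ∈ Finset.univ.erase i, ∫⁻ z : EuclideanSpace ℝ ι,
          (3 * 2 ^ (Fintype.card ι - 1) / volume (ball (0 : EuclideanSpace ℝ ι) 1))
            * (ENNReal.ofReal (f z) / ENNReal.ofReal (max |z i| |z k|)) :=
        Finset.sum_le_sum (fun k _ => lintegral_mono (fun z => tonelli_radial f i k z))
    _ = (3 * 2 ^ (Fintype.card ι - 1) / volume (ball (0 : EuclideanSpace ℝ ι) 1)) *
          ∑ k ∈ Finset.univ.erase i,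
            ∫⁻ z : EuclideanSpace ℝ ι, ENNReal.ofReal (f z) / ENNReal.ofReal (max |z i| |z k|) := by
        rw [Finset.mul_sum]
        refine Finset.sum_congr rfl (fun k _ => ?_)
        exact lintegral_const_mul' _ _ hC

end Vale.Agent.Lib.P137
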