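import Mathlib
import Vale.Agent.Lib.P137.Defs
import Vale.Agent.Lib.P137.Hyper
import Vale.Agent.Lib.P137.Maximal
import Vale.Agent.Lib.P137.BlockMax
import Vale.Agent.Lib.P137.Slicing
import Vale.Agent.Lib.P137.Pointwise
import Vale.Agent.Lib.P137.Tonelli
import Vale.Agent.Lib.P137.HardyMax
import Vale.Agent.Lib.P137.Scaling

namespace Vale.Agent.Lib.P137

open MeasureTheory Set Metric
open scoped ENNReal NNReal

variable {ι : Type*} [Fintype ι] [DecidableEq ι]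

/-- The hyperplane integral is monotone with respect to inequalities that hold on the
hyperplane. -/
theorem hyperInt_mono_of {i : ι} {F G : EuclideanSpace ℝ ι → ℝ≥0∞}
    (h : ∀ x : EuclideanSpace ℝ ι, x i = 0 → F x ≤ G x) : hyperInt i F ≤ hyperInt i G := by
  unfold hyperInt lmarginal
  apply lintegral_mono
  intro y
  apply h
  simp [Function.updateFinset]

theorem hyperInt_add_const_mul (i : ι) {A : EuclideanSpace ℝ ι → ℝ≥0∞} (hA : Measurable A)
    (T : EuclideanSpace ℝ ι → ℝ≥0∞) {c : ℝ≥0∞} (hc : c ≠ ∞) :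
    hyperInt i (fun x => A x + c * T x) = hyperInt i A + c * hyperInt i T := by
  unfold hyperInt lmarginal
  rw [lintegral_add_left, lintegral_const_mul' _ _ hc]
  exact hA.comp ((WithLp.measurable_toLp 2 (ι → ℝ)).comp measurable_updateFinset)

/-- Endpoint gradient bound for the centered maximal function of a block-decreasing,
compactly supported Lipschitz function on `ℝ^ι`. -/
theorem gradient_bound_block [Nonempty ι] {f : EuclideanSpace ℝ ι → ℝ} {K : ℝ≥0}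
    (hL : LipschitzWith K f)
    (hBD : ∀ x y : EuclideanSpace ℝ ι, (∀ i, |x i| ≤ |y i|) → f y ≤ f x)
    {R : ℝ} (hR : ∀ x, R ≤ ‖x‖ → f x = 0) :
    LipschitzWith K (centeredMaximal f) ∧ ∫⁻ x, ‖fderiv ℝ f x‖ₑ < ∞ ∧
    ∫⁻ x, ‖fderiv ℝ (centeredMaximal f) x‖ₑ ≤
      ((Fintype.card ι : ℝ≥0∞) * (2 ^ (Fintype.card ι - 1) + 2 ^ (Fintype.card ι + 3) *
        (3 * 2 ^ (Fintype.card ι - 1) / volume (ball (0 : EuclideanSpace ℝ ι) 1)) *
          ((Fintype.card ι - 1 : ℕ) : ℝ≥0∞))) * ∫⁻ x, ‖fderiv ℝ f x‖ₑ := by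
  classical
  have h0 : ∀ x, 0 ≤ f x := block_nonneg hBD hR
  have hfc := hL.continuous
  have hC : ∀ y, |f y| ≤ f 0 := fun y => by
    rw [abs_of_nonneg (h0 y)]
    exact block_le_zero hBD y
  have hML : LipschitzWith K (centeredMaximal f) := lipschitz_centeredMaximal hL hC
  refine ⟨hML, lintegral_fderiv_lt_top hL hR, ?_⟩
  obtain ⟨V, hV⟩ : ∃ V : ℝ≥0∞, V = ∫⁻ x, ‖fderiv ℝ f x‖ₑ := ⟨_, rfl⟩
  obtain ⟨φ, hφ⟩ : ∃ φ : EuclideanSpace ℝ ι → ℝ≥0∞, φ = fun x => ENNReal.ofReal (f x) :=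
    ⟨_, rfl⟩
  obtain ⟨d, hd⟩ : ∃ d : ℕ, d = Fintype.card ι := ⟨_, rfl⟩
  obtain ⟨c₁, hc₁⟩ : ∃ c₁ : ℝ≥0∞,
      c₁ = 3 * 2 ^ (d - 1) / volume (ball (0 : EuclideanSpace ℝ ι) 1) := ⟨_, rfl⟩
  have hlow : ∀ j, 2 * hyperInt j φ ≤ V := fun j => by
    rw [hφ, hV]
    exact hyperInt_le_lintegral_fderiv hL hR j
  have hMBD : ∀ x y : EuclideanSpace ℝ ι, (∀ i, |x i| ≤ |y i|) →
      centeredMaximal f y ≤ centeredMaximal f x :=
    fun x y h => centeredMaximal_block hfc hBD h0 h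
  have hM0 : ∀ x, 0 ≤ centeredMaximal f x := centeredMaximal_nonneg f
  have hup := lintegral_fderiv_le_hyperInt hML hMBD hM0
  rw [← hV, ← hd, ← hc₁]
  refine le_trans hup ?_
  have hφm : Measurable φ := by
    rw [hφ]
    exact ENNReal.measurable_ofReal.comp hfc.measurable
  have hterm : ∀ i, 2 * hyperInt i (fun x => ENNReal.ofReal (centeredMaximal f x)) ≤
      (2 ^ (d - 1) + 2 ^ (d + 3) * c₁ * ((d - 1 : ℕ) : ℝ≥0∞)) * V := by
    intro i
    obtain ⟨T, hT⟩ : ∃ T : EuclideanSpace ℝ ι → ℝ≥0∞,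
        T = fun x => ∫⁻ ρ in {ρ : ℝ | ∃ k, k ≠ i ∧ |x k| / 2 < ρ},
          (∫⁻ z in ball x ρ, ENNReal.ofReal (f z)) / volume (ball x ρ) / ENNReal.ofReal ρ :=
      ⟨_, rfl⟩
    have h1 : hyperInt i (fun x => ENNReal.ofReal (centeredMaximal f x)) ≤
        hyperInt i (fun x => φ ((2:ℝ)⁻¹ • x) + 2 ^ (d + 1) * T x) := by
      apply hyperInt_mono_of
      intro x hx
      rw [hφ, hT, hd]
      exact centeredMaximal_le_on_hyperplane hfc hBD h0 i x hx
    have hA : Measurable fun x : EuclideanSpace ℝ ι => φ ((2:ℝ)⁻¹ • x) :=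
      hφm.comp (measurable_const_smul _)
    have hfin : (2:ℝ≥0∞) ^ (d + 1) ≠ ∞ := by finiteness
    rw [hyperInt_add_const_mul i hA T hfin, hyperInt_comp_smul i hφm, ← hd] at h1
    have h2 : hyperInt i T ≤ c₁ * (((d - 1 : ℕ) : ℝ≥0∞) * (2 * V)) := by
      rw [hT]
      refine le_trans (hyperInt_tail_le hfc i) ?_
      rw [← hd, ← hc₁]
      refine mul_le_mul_right ?_ c₁
      calc ∑ k ∈ Finset.univ.erase i,
            ∫⁻ z : EuclideanSpace ℝ ι, ENNReal.ofReal (f z) / ENNReal.ofReal (max |z i| |z k|)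
          ≤ ∑ _k ∈ Finset.univ.erase i, (V + V) := by
            apply Finset.sum_le_sum
            intro k hk
            refine le_trans (lintegral_div_max_le hfc hBD h0 i k (Finset.ne_of_mem_erase hk)) ?_
            have e1 := hlow i
            have e2 := hlow k
            rw [hφ] at e1 e2
            exact add_le_add e1 e2
        _ = ((d - 1 : ℕ) : ℝ≥0∞) * (2 * V) := by
            rw [Finset.sum_const, Finset.card_erase_of_mem (Finset.mem_univ i), Finset.card_univ,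
              nsmul_eq_mul, two_mul, hd]
    calc 2 * hyperInt i (fun x => ENNReal.ofReal (centeredMaximal f x))
        ≤ 2 * (2 ^ (d - 1) * hyperInt i φ + 2 ^ (d + 1) * hyperInt i T) :=
          mul_le_mul_right h1 2
      _ ≤ 2 * (2 ^ (d - 1) * hyperInt i φ +
            2 ^ (d + 1) * (c₁ * (((d - 1 : ℕ) : ℝ≥0∞) * (2 * V)))) := by
          gcongr
      _ = 2 ^ (d - 1) * (2 * hyperInt i φ) + 2 ^ (d + 3) * c₁ * ((d - 1 : ℕ) : ℝ≥0∞) * V := by
          ring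
      _ ≤ 2 ^ (d - 1) * V + 2 ^ (d + 3) * c₁ * ((d - 1 : ℕ) : ℝ≥0∞) * V := by
          gcongr
          exact hlow i
      _ = (2 ^ (d - 1) + 2 ^ (d + 3) * c₁ * ((d - 1 : ℕ) : ℝ≥0∞)) * V := by ring
  calc ∑ i, 2 * hyperInt i (fun x => ENNReal.ofReal (centeredMaximal f x))
      ≤ ∑ _i : ι, (2 ^ (d - 1) + 2 ^ (d + 3) * c₁ * ((d - 1 : ℕ) : ℝ≥0∞)) * V :=
        Finset.sum_le_sum (fun i _ => hterm i)
    _ = (d : ℝ≥0∞) * (2 ^ (d - 1) + 2 ^ (d + 3) * c₁ * ((d - 1 : ℕ) : ℝ≥0∞)) * V := by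
        rw [Finset.sum_const, Finset.card_univ, nsmul_eq_mul, ← hd]
        ring

end Vale.Agent.Lib.P137
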